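import Vale.Agent.P079.Top

namespace Vale.Agent.P079

open Set Filter Topology

variable {X : Type*} [NormedAddCommGroup X] [NormedSpace ℝ X]

variable {b : SchauderBasis ℝ X}

theorem cesaro_limit_zero (hS : SuppressionOneUnconditional b) {ξ : ℕ → X} {m : ℕ → ℕ}
    (hm : StrictMono m)
    (hξB : ∀ j, ‖ξ j - GeneralSchauderBasis.proj b (Finset.Ico (m j) (m (j + 1))) (ξ j)‖
      ≤ 1 / ((j : ℝ) + 1))
    {J : ℕ → ℕ} (hJ : StrictMono J) {l : X}
    (hl : Tendsto (fun n : ℕ => ((n : ℝ))⁻¹ • ∑ i ∈ Finset.range n, ξ (J i)) atTop (𝓝 l)) :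
    l = 0 := by
  have hP : ∀ M : ℕ, SchauderBasis.proj b M l = 0 := by
    intro M
    have h1 : Tendsto (fun n : ℕ => SchauderBasis.proj b M
        (((n : ℝ))⁻¹ • ∑ i ∈ Finset.range n, ξ (J i))) atTop (𝓝 (SchauderBasis.proj b M l)) :=
      ((SchauderBasis.proj b M).continuous.tendsto l).comp hl
    have ha : Tendsto (fun i : ℕ => ‖SchauderBasis.proj b M (ξ (J i))‖) atTop (𝓝 0) := by
      apply squeeze_zero' (Eventually.of_forall fun i => norm_nonneg _) _
        tendsto_one_div_add_atTop_nhds_zero_nat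
      filter_upwards [eventually_ge_atTop M] with i hi
      have hiJ : i ≤ J i := hJ.le_apply
      have hJm : J i ≤ m (J i) := hm.le_apply
      have hdis : Disjoint (Finset.range M) (Finset.Ico (m (J i)) (m (J i + 1))) := by
        rw [Finset.disjoint_left]
        intro a ha hb
        rw [Finset.mem_range] at ha
        rw [Finset.mem_Ico] at hb
        omega
      have h2 : SchauderBasis.proj b M (ξ (J i)) = GeneralSchauderBasis.proj b (Finset.range M)
          (ξ (J i) - GeneralSchauderBasis.proj b (Finset.Ico (m (J i)) (m (J i + 1))) (ξ (J i))) := by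
        rw [map_sub, proj_proj_of_disjoint _ _ hdis, sub_zero, SchauderBasis.proj]
      rw [h2]
      calc _ ≤ ‖ξ (J i) - GeneralSchauderBasis.proj b (Finset.Ico (m (J i)) (m (J i + 1))) (ξ (J i))‖ :=
            hS _ _
        _ ≤ 1 / ((J i : ℝ) + 1) := hξB _
        _ ≤ 1 / ((i : ℝ) + 1) := by
            apply one_div_le_one_div_of_le (by positivity)
            have : (i : ℝ) ≤ J i := by exact_mod_cast hiJ
            linarith
    have hc := ha.cesaro
    have h3 : Tendsto (fun n : ℕ => ‖SchauderBasis.proj b M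
        (((n : ℝ))⁻¹ • ∑ i ∈ Finset.range n, ξ (J i))‖) atTop (𝓝 0) := by
      apply squeeze_zero (fun n => norm_nonneg _) _ hc
      intro n
      rw [map_smul, map_sum, norm_smul, Real.norm_of_nonneg (by positivity)]
      exact mul_le_mul_of_nonneg_left (norm_sum_le _ _) (by positivity)
    have h4 := tendsto_nhds_unique h1.norm h3
    exact norm_eq_zero.mp h4
  have h5 := SchauderBasis.tendsto_proj b l
  simp only [hP] at h5
  exact (tendsto_nhds_unique h5 tendsto_const_nhds)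

theorem blockAveraging_of_banachSaks (hS : SuppressionOneUnconditional b) (hBS : BanachSaks X) :
    BlockAveraging b := by
  intro ξ m d hm hd0 hξd _ hξB
  by_contra hcon
  have h1 : ∀ k : ℕ, ∃ r : ℕ, 0 < k → ∀ A : Finset ℕ, (∀ j ∈ A, r ≤ j) → A.card = k →
      (k : ℝ) * (1 / 2) * d < ‖∑ j ∈ A, ξ j‖ := by
    intro k
    by_cases hk : 0 < k
    · by_contra h2
      push Not at h2
      refine hcon ⟨k, hk, 1 / 2, by norm_num, fun r => ?_⟩
      obtain ⟨_, A, hA1, hA2, hA3⟩ := h2 r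
      exact ⟨A, hA1, hA2, hA3⟩
    · exact ⟨0, fun h => absurd h hk⟩
  choose r hr using h1
  have hs : StrictMono (fun i : ℕ => i + ∑ k ∈ Finset.range (i + 1), r k) := by
    apply strictMono_nat_of_lt_succ
    intro i
    rw [Finset.sum_range_succ _ (i + 1)]
    omega
  have hsr : ∀ k i : ℕ, k ≤ i → r k ≤ i + ∑ k ∈ Finset.range (i + 1), r k := by
    intro k i hki
    have : r k ≤ ∑ k ∈ Finset.range (i + 1), r k :=
      Finset.single_le_sum (f := r) (fun _ _ => Nat.zero_le _) (Finset.mem_range.mpr (by omega))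
    omega
  obtain ⟨φ, hφ, l, hl⟩ := hBS (fun i => ξ (i + ∑ k ∈ Finset.range (i + 1), r k)) (by
    rw [isBounded_iff_forall_norm_le]
    refine ⟨d, ?_⟩
    rintro _ ⟨i, rfl⟩
    exact hξd _)
  obtain ⟨J, hJdef⟩ : ∃ J : ℕ → ℕ, J = fun i => φ i + ∑ k ∈ Finset.range (φ i + 1), r k := ⟨_, rfl⟩
  have hJ : StrictMono J := by
    rw [hJdef]; exact hs.comp hφ
  have hl' : Tendsto (fun n : ℕ => ((n : ℝ))⁻¹ • ∑ i ∈ Finset.range n, ξ (J i)) atTop (𝓝 l) := by
    rw [hJdef]; exact hl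
  have hl0 : l = 0 := cesaro_limit_zero hS hm hξB hJ hl'
  rw [hl0] at hl'
  have h2k : Tendsto (fun k : ℕ => 2 * k) atTop atTop :=
    tendsto_atTop_mono (fun k => by simp only [id]; omega) tendsto_id
  have hD : Tendsto (fun k : ℕ => (2 : ℝ) • (((2 * k : ℕ) : ℝ)⁻¹ • ∑ i ∈ Finset.range (2 * k), ξ (J i))
      - ((k : ℝ))⁻¹ • ∑ i ∈ Finset.range k, ξ (J i)) atTop (𝓝 ((2 : ℝ) • (0 : X) - 0)) :=
    ((hl'.comp h2k).const_smul (2 : ℝ)).sub hl'
  simp only [smul_zero, sub_zero] at hD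
  have hDn := hD.norm
  rw [norm_zero] at hDn
  have hev : ∀ᶠ k : ℕ in atTop, ‖(2 : ℝ) • (((2 * k : ℕ) : ℝ)⁻¹ • ∑ i ∈ Finset.range (2 * k), ξ (J i))
      - ((k : ℝ))⁻¹ • ∑ i ∈ Finset.range k, ξ (J i)‖ < d / 2 :=
    hDn.eventually (gt_mem_nhds (by positivity))
  obtain ⟨k, hk1, hk2⟩ := (hev.and (eventually_gt_atTop 0)).exists
  have hk0 : (0 : ℝ) < k := by exact_mod_cast hk2
  have hA := hr k hk2 ((Finset.Ico k (2 * k)).image J) (by
      intro j hj
      obtain ⟨i, hi, rfl⟩ := Finset.mem_image.mp hj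
      rw [Finset.mem_Ico] at hi
      rw [hJdef]
      exact hsr k (φ i) (hi.1.trans hφ.le_apply)) (by
      rw [Finset.card_image_of_injective _ hJ.injective, Nat.card_Ico]
      omega)
  rw [Finset.sum_image (fun a _ c _ hac => hJ.injective hac),
    Finset.sum_Ico_eq_sub _ (by omega : k ≤ 2 * k)] at hA
  have heq : (2 : ℝ) • (((2 * k : ℕ) : ℝ)⁻¹ • ∑ i ∈ Finset.range (2 * k), ξ (J i))
      - ((k : ℝ))⁻¹ • ∑ i ∈ Finset.range k, ξ (J i) =
      ((k : ℝ))⁻¹ • (∑ i ∈ Finset.range (2 * k), ξ (J i) - ∑ i ∈ Finset.range k, ξ (J i)) := by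
    rw [smul_sub, smul_smul]
    congr 2
    push_cast
    field_simp
  rw [heq, norm_smul, Real.norm_of_nonneg (by positivity)] at hk1
  have : ((k : ℝ))⁻¹ * ((k : ℝ) * (1 / 2) * d) <
      ((k : ℝ))⁻¹ * ‖∑ i ∈ Finset.range (2 * k), ξ (J i) - ∑ i ∈ Finset.range k, ξ (J i)‖ :=
    mul_lt_mul_of_pos_left hA (by positivity)
  have h3 : ((k : ℝ))⁻¹ * ((k : ℝ) * (1 / 2) * d) = d / 2 := by field_simp
  linarith

end Vale.Agent.P079
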