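import Vale.Agent.P079.Resolvent

namespace Vale.Agent.P079

open Set Filter Topology

variable {X : Type*} [NormedAddCommGroup X] [NormedSpace ℝ X]

variable {b : SchauderBasis ℝ X}

theorem proj_sdiff (A B : Finset ℕ) (hAB : A ⊆ B) (x : X) :
    GeneralSchauderBasis.proj b B x - GeneralSchauderBasis.proj b A x =
      GeneralSchauderBasis.proj b (B \ A) x := by
  simp only [GeneralSchauderBasis.proj_apply]
  rw [← Finset.sum_sdiff hAB]
  abel

theorem norm_sub_proj_le (hS : SuppressionOneUnconditional b) (A : Finset ℕ) (x : X) :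
    ‖x - GeneralSchauderBasis.proj b A x‖ ≤ ‖x‖ := by
  have h1 : Tendsto (fun n => ‖SchauderBasis.proj b n x - GeneralSchauderBasis.proj b A x‖) atTop
      (𝓝 ‖x - GeneralSchauderBasis.proj b A x‖) :=
    ((SchauderBasis.tendsto_proj b x).sub_const _).norm
  apply le_of_tendsto h1
  obtain ⟨N, hN⟩ : ∃ N, A ⊆ Finset.range N := by
    refine ⟨A.sup id + 1, fun i hi => ?_⟩
    rw [Finset.mem_range]
    exact Nat.lt_succ_of_le (Finset.le_sup (f := id) hi)
  filter_upwards [eventually_ge_atTop N] with n hn
  have hAn : A ⊆ Finset.range n := hN.trans (Finset.range_mono hn)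
  rw [SchauderBasis.proj, proj_sdiff A _ hAn]
  exact hS _ _

theorem proj_proj_of_disjoint (A B : Finset ℕ) (hAB : Disjoint A B) (x : X) :
    GeneralSchauderBasis.proj b A (GeneralSchauderBasis.proj b B x) = 0 := by
  rw [GeneralSchauderBasis.proj_comp, GeneralSchauderBasis.proj_apply]
  apply Finset.sum_eq_zero
  intro i hi
  have hi' := (@Finset.mem_inter _ (fun a b => Classical.propDecidable (a = b)) i A B).mp hi
  exact absurd hi'.2 (Finset.disjoint_left.mp hAB hi'.1)

theorem sum_proj_eq (A : Finset ℕ) (B : ℕ → Finset ℕ)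
    (hB : (A : Set ℕ).PairwiseDisjoint B) (x : X) :
    ∑ j ∈ A, GeneralSchauderBasis.proj b (B j) x = GeneralSchauderBasis.proj b (A.biUnion B) x := by
  simp only [GeneralSchauderBasis.proj_apply]
  rw [Finset.sum_biUnion hB]

theorem weak_nhds_proj (A : Finset ℕ) (p : X) {ε : ℝ} (hε : 0 < ε) :
    {y : WeakSpace ℝ X | ‖GeneralSchauderBasis.proj b A ((toWeakSpace ℝ X).symm y - p)‖ < ε} ∈
      𝓝 (toWeakSpace ℝ X p) := by
  have hcont : Continuous (fun y : WeakSpace ℝ X =>
      GeneralSchauderBasis.proj b A ((toWeakSpace ℝ X).symm y - p)) := by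
    simp only [GeneralSchauderBasis.proj_apply]
    apply continuous_finsetSum
    intro i _
    apply Continuous.smul _ continuous_const
    simp only [map_sub]
    apply Continuous.sub _ continuous_const
    exact WeakBilin.eval_continuous (topDualPairing ℝ X).flip (b.coord i)
  have hopen : IsOpen {y : WeakSpace ℝ X |
      ‖GeneralSchauderBasis.proj b A ((toWeakSpace ℝ X).symm y - p)‖ < ε} :=
    isOpen_lt hcont.norm continuous_const
  apply hopen.mem_nhds
  simp [hε]

end Vale.Agent.P079
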