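import Vale.Agent.P079.Basis

namespace Vale.Agent.P079

open Set Filter Topology

variable {X : Type*} [NormedAddCommGroup X] [NormedSpace ℝ X]
variable {b : SchauderBasis ℝ X} {T : X → X} {K : Set X}

theorem block_step {p : X}
    (hp : ∀ δ > 0, ∀ U ∈ 𝓝 (toWeakSpace ℝ X p), ∃ x ∈ K, ‖x - T x‖ ≤ δ ∧ toWeakSpace ℝ X x ∈ U)
    {η : ℝ} (hη : 0 < η) (m : ℕ) :
    ∃ (x : X) (m' : ℕ), x ∈ K ∧ m < m' ∧ ‖x - T x‖ ≤ η ∧
      ‖(x - p) - GeneralSchauderBasis.proj b (Finset.Ico m m') (x - p)‖ ≤ η := by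
  obtain ⟨x, hxK, hxT, hxU⟩ := hp η hη _
    (weak_nhds_proj (b := b) (Finset.range m) p (half_pos hη))
  simp only [mem_ofPred_eq, LinearEquiv.symm_apply_apply] at hxU
  have h1 : ∀ᶠ n in atTop, ‖(x - p) - SchauderBasis.proj b n (x - p)‖ < η / 2 := by
    have h2 : Tendsto (fun n => ‖(x - p) - SchauderBasis.proj b n (x - p)‖) atTop (𝓝 0) := by
      have := ((SchauderBasis.tendsto_proj b (x - p)).const_sub (x - p)).norm
      simpa using this
    exact h2.eventually (gt_mem_nhds (half_pos hη))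
  obtain ⟨m', hm', hm'2⟩ := (h1.and (eventually_gt_atTop m)).exists
  refine ⟨x, m', hxK, hm'2, hxT, ?_⟩
  have h3 : (x - p) - GeneralSchauderBasis.proj b (Finset.Ico m m') (x - p) =
      ((x - p) - SchauderBasis.proj b m' (x - p)) +
        GeneralSchauderBasis.proj b (Finset.range m) (x - p) := by
    simp only [GeneralSchauderBasis.proj_apply, SchauderBasis.proj_apply]
    rw [Finset.sum_Ico_eq_sub _ hm'2.le]
    abel
  rw [h3]
  calc _ ≤ ‖(x - p) - SchauderBasis.proj b m' (x - p)‖ +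
        ‖GeneralSchauderBasis.proj b (Finset.range m) (x - p)‖ := norm_add_le _ _
    _ ≤ η / 2 + η / 2 := by linarith
    _ = η := by ring

theorem exists_block_seq {p : X}
    (hp : ∀ δ > 0, ∀ U ∈ 𝓝 (toWeakSpace ℝ X p), ∃ x ∈ K, ‖x - T x‖ ≤ δ ∧ toWeakSpace ℝ X x ∈ U) :
    ∃ (x : ℕ → X) (m : ℕ → ℕ), StrictMono m ∧ ∀ j, x j ∈ K ∧ ‖x j - T (x j)‖ ≤ 1 / ((j : ℝ) + 1) ∧
      ‖(x j - p) - GeneralSchauderBasis.proj b (Finset.Ico (m j) (m (j + 1))) (x j - p)‖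
        ≤ 1 / ((j : ℝ) + 1) := by
  have step : ∀ (j m : ℕ), ∃ (x : X) (m' : ℕ), x ∈ K ∧ m < m' ∧ ‖x - T x‖ ≤ 1 / ((j : ℝ) + 1) ∧
      ‖(x - p) - GeneralSchauderBasis.proj b (Finset.Ico m m') (x - p)‖ ≤ 1 / ((j : ℝ) + 1) :=
    fun j m => block_step hp (by positivity) m
  choose f g hfK hg hfT hfB using step
  refine ⟨fun j => f j (Nat.rec 0 (fun j mj => g j mj) j), fun j => Nat.rec 0 (fun j mj => g j mj) j,
    ?_, ?_⟩
  · apply strictMono_nat_of_lt_succ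
    intro j
    exact hg j _
  · intro j
    exact ⟨hfK j _, hfT j _, hfB j _⟩

end Vale.Agent.P079
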