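import Vale.Agent.P079.FlipCore

namespace Vale.Agent.P079

open Set Filter Topology Pointwise

variable {X : Type*} [NormedAddCommGroup X] [NormedSpace ℝ X]

theorem exists_weaklyNull_seq {L0 L' : Set X} (hc : L0.Countable) (hsub : L0 ⊆ L')
    (hL' : WCompact L') (P : X → Prop)
    (h : ∀ (I : Finset (StrongDual ℝ X)) (θ : ℝ), 0 < θ →
      ∃ b ∈ L0, (∀ f ∈ I, |f b| < θ) ∧ P b) :
    ∃ b : ℕ → X, (∀ f : StrongDual ℝ X, Tendsto (fun j => f (b j)) atTop (𝓝 0)) ∧
      ∀ j, P (b j) := by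
  classical
  have hsep : TopologicalSpace.IsSeparable (closure (Submodule.span ℝ L0 : Set X)) :=
    (hc.isSeparable.span (R := ℝ)).closure
  obtain ⟨c, hcc, hcd⟩ := hsep
  have hcne : c.Nonempty := by
    have : (0 : X) ∈ closure c := hcd (subset_closure (Submodule.zero_mem _))
    exact closure_nonempty_iff.mp ⟨0, this⟩
  obtain ⟨e, rfl⟩ := hcc.exists_eq_range hcne
  choose g hg1 hg2 using fun k => exists_dual_vector'' ℝ (e k)
  choose b hbL hbs hbP using fun j : ℕ =>
    h ((Finset.range (j + 1)).image g) (1 / ((j : ℝ) + 1)) (by positivity)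
  refine ⟨b, ?_, hbP⟩
  have hg0 : ∀ k, Tendsto (fun j => g k (b j)) atTop (𝓝 0) := by
    intro k
    apply squeeze_zero_norm' _ tendsto_one_div_add_atTop_nhds_zero_nat
    filter_upwards [eventually_ge_atTop k] with j hj
    rw [Real.norm_eq_abs]
    exact (hbs j (g k) (Finset.mem_image_of_mem _ (Finset.mem_range.mpr (by omega)))).le
  intro f
  rw [tendsto_iff_ultrafilter]
  intro V hV
  obtain ⟨β, _, hβ⟩ := hL'.exists_wlim V b (fun j => hsub (hbL j))
  have hmem : β ∈ closure (Submodule.span ℝ L0 : Set X) :=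
    hβ.mem_of_closed_convex isClosed_closure (Submodule.convex _).closure
      (Eventually.of_forall fun j => subset_closure (Submodule.subset_span (hbL j)))
  have hzero : ∀ k, g k β = 0 := fun k =>
    tendsto_nhds_unique (hβ (g k)) ((hg0 k).mono_left hV)
  have hβ0 : β = 0 := by
    by_contra hne
    have hpos : 0 < ‖β‖ := norm_pos_iff.mpr hne
    obtain ⟨_, ⟨k, rfl⟩, hk⟩ := Metric.mem_closure_iff.mp (hcd hmem) (‖β‖ / 2) (by positivity)
    rw [dist_eq_norm] at hk
    have h1 : ‖e k‖ = g k (e k - β) := by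
      rw [map_sub, hzero k, sub_zero, hg2 k]
      simp
    have h2 : ‖e k‖ ≤ ‖β - e k‖ := by
      rw [h1, norm_sub_rev]
      calc g k (e k - β) ≤ ‖g k (e k - β)‖ := Real.le_norm_self _
        _ ≤ ‖g k‖ * ‖e k - β‖ := (g k).le_opNorm _
        _ ≤ 1 * ‖e k - β‖ := by gcongr; exact hg1 k
        _ = ‖e k - β‖ := one_mul _
    have h3 : ‖β‖ ≤ ‖β - e k‖ + ‖e k‖ := by
      have := norm_add_le (β - e k) (e k)
      simpa using this
    linarith
  have := hβ f
  rwa [hβ0, map_zero] at this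

theorem flipOn_of_worth (hW : HasWORTH X) {L0 L' : Set X} (hc : L0.Countable) (hsub : L0 ⊆ L')
    (hL' : WCompact L') : FlipOn 1 L0 := by
  intro x η hη
  by_contra hcon
  push Not at hcon
  obtain ⟨b, hb0, hbP⟩ := exists_weaklyNull_seq hc hsub hL'
    (fun b => 1 * ‖x - b‖ + η < ‖x + b‖) hcon
  have hev := (hW b hb0 x).eventually (gt_mem_nhds hη)
  obtain ⟨j, hj⟩ := hev.exists
  have := hbP j
  rw [add_comm x, norm_sub_rev x] at this
  linarith

end Vale.Agent.P079
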