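import Vale.Agent.P079.Block

namespace Vale.Agent.P079

open Set Filter Topology

variable {X : Type*} [NormedAddCommGroup X] [NormedSpace ℝ X]
variable {b : SchauderBasis ℝ X} {T : X → X} {K : Set X}

theorem block_disjoint {m : ℕ → ℕ} (hm : StrictMono m) {i j : ℕ} (hij : i ≠ j) :
    Disjoint (Finset.Ico (m i) (m (i + 1))) (Finset.Ico (m j) (m (j + 1))) := by
  rw [Finset.disjoint_left]
  intro a ha hb
  rw [Finset.mem_Ico] at ha hb
  rcases lt_or_gt_of_ne hij with h | h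
  · have := hm.monotone (Nat.succ_le_of_lt h)
    simp only [Nat.succ_eq_add_one] at this
    omega
  · have := hm.monotone (Nat.succ_le_of_lt h)
    simp only [Nat.succ_eq_add_one] at this
    omega

theorem block_disjoint_range {m : ℕ → ℕ} (hm : StrictMono m) {r j : ℕ} (hrj : r ≤ j) :
    Disjoint (Finset.Ico (m j) (m (j + 1))) (Finset.range (m r)) := by
  rw [Finset.disjoint_left]
  intro a ha hb
  rw [Finset.mem_Ico] at ha
  rw [Finset.mem_range] at hb
  have := hm.monotone hrj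
  omega

theorem core_contradiction [CompleteSpace X] (hS : SuppressionOneUnconditional b)
    (h : IsMinInv T K) {d : ℝ} (hd0 : 0 < d) (hd : ∀ a ∈ K, ∀ b ∈ K, ‖a - b‖ ≤ d)
    (hd' : ∀ r < d, ∃ a ∈ K, ∃ b ∈ K, r < ‖a - b‖)
    {p : X} (hpK : p ∈ K) {x : ℕ → X} {m : ℕ → ℕ} (hm : StrictMono m)
    (hx : ∀ j, x j ∈ K ∧ ‖x j - T (x j)‖ ≤ 1 / ((j : ℝ) + 1) ∧
      ‖(x j - p) - GeneralSchauderBasis.proj b (Finset.Ico (m j) (m (j + 1))) (x j - p)‖
        ≤ 1 / ((j : ℝ) + 1))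
    {k : ℕ} (hk : 0 < k) {γ : ℝ} (hγ : γ < 1)
    (H : ∀ r : ℕ, ∃ A : Finset ℕ, (∀ j ∈ A, r ≤ j) ∧ A.card = k ∧
      ‖∑ j ∈ A, (x j - p)‖ ≤ k * γ * d) : False := by
  have hk0 : (0 : ℝ) < k := by exact_mod_cast hk
  have hk1 : (1 : ℝ) ≤ k := by exact_mod_cast hk
  obtain ⟨g, hgdef⟩ : ∃ g : ℝ, g = (1 - γ) * d / k := ⟨_, rfl⟩
  have hg : 0 < g := by
    rw [hgdef]
    have : 0 < 1 - γ := by linarith
    positivity
  have hkg : k * g = (1 - γ) * d := by
    rw [hgdef]; field_simp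
  have hGK : ∃ δ > 0, ∀ z ∈ K, ‖z - T z‖ < δ → d - g / 4 < ‖z - p‖ := by
    by_contra hcon
    push Not at hcon
    have h1 := h.goebel_karlovitz hpK (r := d - g / 4) (fun δ hδ => hcon δ hδ)
    obtain ⟨a, ha, c, hc, hac⟩ := hd' (d - g / 4) (by linarith)
    linarith [h1 a ha c hc]
  obtain ⟨δ, hδ, hGK⟩ := hGK
  obtain ⟨t, htdef⟩ : ∃ t : ℝ, t = min 1 (δ / (2 * (d + 1))) := ⟨_, rfl⟩
  have ht0 : 0 < t := by
    rw [htdef]; exact lt_min one_pos (by positivity)
  have ht1 : t ≤ 1 := by rw [htdef]; exact min_le_left _ _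
  have htd : t * d < δ := by
    have h1 : t ≤ δ / (2 * (d + 1)) := by rw [htdef]; exact min_le_right _ _
    have h2 : t * d ≤ δ / (2 * (d + 1)) * d := mul_le_mul_of_nonneg_right h1 hd0.le
    have h3 : δ / (2 * (d + 1)) * d < δ := by
      rw [div_mul_eq_mul_div, div_lt_iff₀ (by positivity)]
      nlinarith
    linarith
  obtain ⟨y, hyK, hy⟩ := exists_resolvent h.inv h.nonexp ht0 ht1 hpK
  have e1 : ∀ᶠ n : ℕ in atTop, ‖(y - p) - SchauderBasis.proj b n (y - p)‖ < g / 4 := by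
    have h2 : Tendsto (fun n => ‖(y - p) - SchauderBasis.proj b n (y - p)‖) atTop (𝓝 0) := by
      have := ((SchauderBasis.tendsto_proj b (y - p)).const_sub (y - p)).norm
      simpa using this
    exact h2.eventually (gt_mem_nhds (by positivity))
  have e2 : ∀ᶠ j : ℕ in atTop, 1 / ((j : ℝ) + 1) * (1 / t + 1) < g / 4 := by
    have h2 : Tendsto (fun j : ℕ => 1 / ((j : ℝ) + 1) * (1 / t + 1)) atTop (𝓝 (0 * (1 / t + 1))) :=
      tendsto_one_div_add_atTop_nhds_zero_nat.mul_const _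
    rw [zero_mul] at h2
    exact h2.eventually (gt_mem_nhds (by positivity))
  obtain ⟨r, hr⟩ := eventually_atTop.mp (e1.and e2)
  obtain ⟨A, hAr, hAk, hAsum⟩ := H r
  have hwK : ∑ j ∈ A, (1 / (k : ℝ)) • x j ∈ K := by
    apply h.inv.convex.sum_mem (fun j _ => by positivity) _ (fun j _ => (hx j).1)
    rw [Finset.sum_const, hAk, nsmul_eq_mul]
    field_simp
  obtain ⟨w, hwdef⟩ : ∃ w : X, w = ∑ j ∈ A, (1 / (k : ℝ)) • x j := ⟨_, rfl⟩
  rw [← hwdef] at hwK
  obtain ⟨z, hzK, hz⟩ := exists_resolvent h.inv h.nonexp ht0 ht1 hwK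
  have hzT : ‖z - T z‖ < δ :=
    (resolvent_displacement ht0.le (hd w hwK (T z) (h.inv.maps hzK)) hz).trans_lt htd
  have hlow := hGK z hzK hzT
  have hsub : ∀ q : X, w - q = (1 / (k : ℝ)) • ∑ j ∈ A, (x j - q) := by
    intro q
    rw [Finset.sum_sub_distrib, Finset.sum_const, hAk, smul_sub, hwdef, Finset.smul_sum,
      ← Nat.cast_smul_eq_nsmul ℝ, smul_smul]
    congr 1
    rw [one_div, inv_mul_cancel₀ hk0.ne', one_smul]
  have hwp : ‖w - p‖ ≤ γ * d := by
    rw [hsub p, norm_smul, Real.norm_of_nonneg (by positivity)]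
    calc 1 / (k : ℝ) * ‖∑ j ∈ A, (x j - p)‖ ≤ 1 / (k : ℝ) * (k * γ * d) := by gcongr
      _ = γ * d := by field_simp
  have hzy : ‖z - y‖ ≤ γ * d := (resolvent_nonexp h.nonexp ht0 ht1 hzK hyK hz hy).trans hwp
  have hwx : ∀ j ∈ A, ‖w - x j‖ ≤ ((k : ℝ) - 1) / k * d := by
    intro j hj
    rw [hsub (x j), norm_smul, Real.norm_of_nonneg (by positivity)]
    have h1 : ‖∑ i ∈ A, (x i - x j)‖ ≤ ((k : ℝ) - 1) * d := by
      rw [← Finset.add_sum_erase A _ hj, sub_self, zero_add]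
      calc ‖∑ i ∈ A.erase j, (x i - x j)‖ ≤ ∑ i ∈ A.erase j, ‖x i - x j‖ := norm_sum_le _ _
        _ ≤ ∑ i ∈ A.erase j, d := Finset.sum_le_sum fun i _ => hd _ (hx i).1 _ (hx j).1
        _ = ((k : ℝ) - 1) * d := by
          rw [Finset.sum_const, Finset.card_erase_of_mem hj, hAk, nsmul_eq_mul,
            Nat.cast_sub hk, Nat.cast_one]
    calc 1 / (k : ℝ) * ‖∑ i ∈ A, (x i - x j)‖ ≤ 1 / (k : ℝ) * (((k : ℝ) - 1) * d) := by gcongr
      _ = ((k : ℝ) - 1) / k * d := by ring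
  have hv1 : ∀ j ∈ A, ‖(z - p) - GeneralSchauderBasis.proj b (Finset.Ico (m j) (m (j + 1))) (z - p)‖
      ≤ ((k : ℝ) - 1) / k * d + g / 4 := by
    intro j hj
    have h1 : (z - p) - GeneralSchauderBasis.proj b (Finset.Ico (m j) (m (j + 1))) (z - p) =
        ((z - x j) - GeneralSchauderBasis.proj b (Finset.Ico (m j) (m (j + 1))) (z - x j)) +
        ((x j - p) - GeneralSchauderBasis.proj b (Finset.Ico (m j) (m (j + 1))) (x j - p)) := by
      have : z - p = (z - x j) + (x j - p) := by abel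
      conv_lhs => rw [this, map_add]
      abel
    have h2 := norm_sub_proj_le hS (Finset.Ico (m j) (m (j + 1))) (z - x j)
    have h3 := resolvent_near h.nonexp ht0 ht1 hzK (hx j).1 hz
    have h4 := (hr j (hAr j hj)).2
    have h5 : ‖x j - T (x j)‖ / t ≤ 1 / ((j : ℝ) + 1) * (1 / t) := by
      rw [div_eq_mul_one_div]
      exact mul_le_mul_of_nonneg_right (hx j).2.1 (by positivity)
    rw [h1]
    calc _ ≤ ‖(z - x j) - GeneralSchauderBasis.proj b (Finset.Ico (m j) (m (j + 1))) (z - x j)‖ +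
        ‖(x j - p) - GeneralSchauderBasis.proj b (Finset.Ico (m j) (m (j + 1))) (x j - p)‖ :=
          norm_add_le _ _
      _ ≤ (‖w - x j‖ + ‖x j - T (x j)‖ / t) + 1 / ((j : ℝ) + 1) := by
          linarith [(hx j).2.2]
      _ ≤ ((k : ℝ) - 1) / k * d + g / 4 := by
          have := hwx j hj
          rw [mul_add, mul_one] at h4
          linarith
  have hdisj : (A : Set ℕ).PairwiseDisjoint (fun j => Finset.Ico (m j) (m (j + 1))) := by
    intro i _ j _ hij
    exact block_disjoint hm hij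
  have hv2 : ‖∑ j ∈ A, GeneralSchauderBasis.proj b (Finset.Ico (m j) (m (j + 1))) (z - p)‖
      ≤ γ * d + g / 4 := by
    have h1 : z - p = (z - y) + (((y - p) - SchauderBasis.proj b (m r) (y - p)) +
        SchauderBasis.proj b (m r) (y - p)) := by abel
    have h2 : ∑ j ∈ A, GeneralSchauderBasis.proj b (Finset.Ico (m j) (m (j + 1)))
        (SchauderBasis.proj b (m r) (y - p)) = 0 := by
      apply Finset.sum_eq_zero
      intro j hj
      rw [SchauderBasis.proj]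
      exact proj_proj_of_disjoint _ _ (block_disjoint_range hm (hAr j hj)) _
    rw [h1]
    simp only [map_add, Finset.sum_add_distrib]
    rw [h2, add_zero, sum_proj_eq A _ hdisj, sum_proj_eq A _ hdisj]
    have h3 := (hr (m r) hm.le_apply).1
    calc _ ≤ ‖GeneralSchauderBasis.proj b (A.biUnion fun j => Finset.Ico (m j) (m (j + 1))) (z - y)‖
        + ‖GeneralSchauderBasis.proj b (A.biUnion fun j => Finset.Ico (m j) (m (j + 1)))
          ((y - p) - SchauderBasis.proj b (m r) (y - p))‖ := norm_add_le _ _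
      _ ≤ ‖z - y‖ + ‖(y - p) - SchauderBasis.proj b (m r) (y - p)‖ :=
          add_le_add (hS _ _) (hS _ _)
      _ ≤ γ * d + g / 4 := by linarith
  have hsum : (k : ℝ) • (z - p) =
      ∑ j ∈ A, ((z - p) - GeneralSchauderBasis.proj b (Finset.Ico (m j) (m (j + 1))) (z - p)) +
      ∑ j ∈ A, GeneralSchauderBasis.proj b (Finset.Ico (m j) (m (j + 1))) (z - p) := by
    rw [← Finset.sum_add_distrib]
    simp only [sub_add_cancel, Finset.sum_const, hAk]
    rw [Nat.cast_smul_eq_nsmul]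
  have hfin : (k : ℝ) * ‖z - p‖ ≤ k * (((k : ℝ) - 1) / k * d + g / 4) + (γ * d + g / 4) := by
    calc (k : ℝ) * ‖z - p‖ = ‖(k : ℝ) • (z - p)‖ := by
          rw [norm_smul, Real.norm_of_nonneg hk0.le]
      _ ≤ ‖∑ j ∈ A, ((z - p) -
            GeneralSchauderBasis.proj b (Finset.Ico (m j) (m (j + 1))) (z - p))‖ +
          ‖∑ j ∈ A, GeneralSchauderBasis.proj b (Finset.Ico (m j) (m (j + 1))) (z - p)‖ := by
          rw [hsum]; exact norm_add_le _ _
      _ ≤ ∑ j ∈ A, (((k : ℝ) - 1) / k * d + g / 4) + (γ * d + g / 4) := by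
          apply add_le_add _ hv2
          exact (norm_sum_le _ _).trans (Finset.sum_le_sum hv1)
      _ = k * (((k : ℝ) - 1) / k * d + g / 4) + (γ * d + g / 4) := by
          rw [Finset.sum_const, hAk, nsmul_eq_mul]
  have h6 : (k : ℝ) * (((k : ℝ) - 1) / k * d + g / 4) = (k - 1) * d + k * g / 4 := by
    field_simp
  rw [h6] at hfin
  have h7 : (k : ℝ) * (d - g / 4) < k * ‖z - p‖ := mul_lt_mul_of_pos_left hlow hk0
  nlinarith

end Vale.Agent.P079
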