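import Mathlib

namespace Vale.Agent.P079

open Set Filter Topology

/-- A real normed space is reflexive when the canonical map into its bidual is onto. -/
def IsReflexiveSpace (X : Type*) [NormedAddCommGroup X] [NormedSpace ℝ X] : Prop :=
  Function.Surjective (NormedSpace.inclusionInDoubleDual ℝ X)

/-- The fixed point property for nonexpansive self-maps of nonempty closed bounded convex sets. -/
def HasFPP (X : Type*) [NormedAddCommGroup X] [NormedSpace ℝ X] : Prop :=
  ∀ C : Set X, C.Nonempty → IsClosed C → Bornology.IsBounded C → Convex ℝ C →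
    ∀ T : X → X, MapsTo T C C → (∀ a ∈ C, ∀ b ∈ C, ‖T a - T b‖ ≤ ‖a - b‖) →
      ∃ x ∈ C, T x = x

/-- The coordinate projections of the basis onto finite sets of indices are all contractive. -/
def SuppressionOneUnconditional {X : Type*} [NormedAddCommGroup X] [NormedSpace ℝ X]
    (b : SchauderBasis ℝ X) : Prop :=
  ∀ (A : Finset ℕ) (x : X), ‖GeneralSchauderBasis.proj b A x‖ ≤ ‖x‖

/-- The Banach-Saks property: every bounded sequence has a subsequence whose arithmetic means
converge in norm. -/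
def BanachSaks (X : Type*) [NormedAddCommGroup X] [NormedSpace ℝ X] : Prop :=
  ∀ u : ℕ → X, Bornology.IsBounded (Set.range u) →
    ∃ φ : ℕ → ℕ, StrictMono φ ∧ ∃ l : X,
      Tendsto (fun n : ℕ => ((n : ℝ))⁻¹ • ∑ i ∈ Finset.range n, u (φ i)) atTop (𝓝 l)

/-- Sims' property WORTH: for every weakly null sequence `ξ` and every vector `x`,
`‖ξ n + x‖ - ‖ξ n - x‖` tends to `0`. -/
def HasWORTH (X : Type*) [NormedAddCommGroup X] [NormedSpace ℝ X] : Prop :=
  ∀ ξ : ℕ → X, (∀ f : StrongDual ℝ X, Tendsto (fun n => f (ξ n)) atTop (𝓝 0)) →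
    ∀ x : X, Tendsto (fun n => ‖ξ n + x‖ - ‖ξ n - x‖) atTop (𝓝 0)

/-- The weak fixed point property: nonexpansive self-maps of nonempty weakly compact convex sets
have fixed points. -/
def HasWeakFPP (X : Type*) [NormedAddCommGroup X] [NormedSpace ℝ X] : Prop :=
  ∀ C : Set X, C.Nonempty → IsCompact (toWeakSpace ℝ X '' C) → Convex ℝ C →
    ∀ T : X → X, MapsTo T C C → (∀ a ∈ C, ∀ b ∈ C, ‖T a - T b‖ ≤ ‖a - b‖) →
      ∃ x ∈ C, T x = x

/-- The coefficient `μ(X)` of Jimenez-Melado and Llorens-Fuster is at most `c`: for every weakly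
null sequence `ξ` and every `x`, `limsup ‖ξ n + x‖ ≤ c * limsup ‖ξ n - x‖`. -/
def MuLe (c : ℝ) (X : Type*) [NormedAddCommGroup X] [NormedSpace ℝ X] : Prop :=
  ∀ ξ : ℕ → X, (∀ f : StrongDual ℝ X, Tendsto (fun n => f (ξ n)) atTop (𝓝 0)) →
    ∀ x : X, limsup (fun n => ‖ξ n + x‖) atTop ≤ c * limsup (fun n => ‖ξ n - x‖) atTop

/-- The Schauder basis is 1-unconditional: changing the signs of finitely many coefficients does
not change the norm of a finite linear combination of basis vectors. -/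
def OneUnconditional {Y : Type*} [NormedAddCommGroup Y] [NormedSpace ℝ Y]
    (b : SchauderBasis ℝ Y) : Prop :=
  ∀ (A : Finset ℕ) (c : ℕ → ℝ) (ε : ℕ → ℝ), (∀ n, ε n = 1 ∨ ε n = -1) →
    ‖∑ n ∈ A, (ε n * c n) • b n‖ = ‖∑ n ∈ A, c n • b n‖

end Vale.Agent.P079
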