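import Vale.Agent.P079.WeakCompact

namespace Vale.Agent.P079

open Set Filter Topology Pointwise

variable {X : Type*} [NormedAddCommGroup X] [NormedSpace ℝ X]

theorem isReflexiveSpace_dual (hX : IsReflexiveSpace X) : IsReflexiveSpace (StrongDual ℝ X) := by
  intro Φ
  refine ⟨Φ.comp (NormedSpace.inclusionInDoubleDual ℝ X), ?_⟩
  ext φ
  obtain ⟨x, rfl⟩ := hX φ
  simp [NormedSpace.dual_def]

theorem exists_almost_norming (φ : StrongDual ℝ X) {η : ℝ} (hη : 0 < η) :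
    ∃ u : X, ‖u‖ ≤ 1 ∧ ‖φ‖ - η ≤ φ u := by
  obtain ⟨x, hx1, hx2⟩ := φ.exists_lt_apply_of_lt_opNorm (show ‖φ‖ - η < ‖φ‖ by linarith)
  rcases le_total 0 (φ x) with h | h
  · exact ⟨x, hx1.le, by rw [Real.norm_of_nonneg h] at hx2; exact hx2.le⟩
  · refine ⟨-x, by rw [norm_neg]; exact hx1.le, ?_⟩
    rw [Real.norm_of_nonpos h] at hx2
    rw [map_neg]
    exact hx2.le

theorem dual_flip [CompleteSpace X] (hX : IsReflexiveSpace X) (hW : HasWORTH X)
    (γ : ℕ → StrongDual ℝ X) (hγ : ∀ x : X, Tendsto (fun n => γ n x) atTop (𝓝 0))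
    (g : StrongDual ℝ X) (V : Ultrafilter ℕ) (hV : (V : Filter ℕ) ≤ atTop) {η : ℝ} (hη : 0 < η) :
    ∀ᶠ n in (V : Filter ℕ), ‖γ n + g‖ ≤ ‖γ n - g‖ + η := by
  -- uniform bound
  obtain ⟨M0, hM0⟩ : ∃ M, ∀ n, ‖γ n‖ ≤ M := by
    apply banach_steinhaus
    intro x
    obtain ⟨C, hC⟩ := (Metric.isBounded_range_of_tendsto _ (hγ x)).exists_norm_le
    exact ⟨C, fun n => hC _ (mem_range_self n)⟩
  have hM00 : 0 ≤ M0 := (norm_nonneg _).trans (hM0 0)
  obtain ⟨M, hM, hMpos⟩ : ∃ M, (∀ n, ‖γ n - g‖ ≤ M) ∧ 0 ≤ M :=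
    ⟨M0 + ‖g‖, fun n => (norm_sub_le _ _).trans (by linarith [hM0 n]), by positivity⟩
  obtain ⟨η', hη', hηη⟩ : ∃ η' : ℝ, 0 < η' ∧ (M + 2) * η' ≤ η :=
    ⟨η / (M + 2), by positivity, by rw [mul_div_cancel₀ _ (by positivity)]⟩
  choose u hu1 hu2 using fun n => exists_almost_norming (γ n + g) hη'
  have hB1 : WCompact (Metric.closedBall (0 : X) 1) :=
    wcompact_of_reflexive hX Metric.isClosed_closedBall Metric.isBounded_closedBall
      (convex_closedBall _ _)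
  obtain ⟨u0, hu0, hu⟩ := hB1.exists_wlim V u (fun n => by simpa using hu1 n)
  have hF : FlipOn 1 (range fun n => u0 - u n) :=
    flipOn_of_worth hW (countable_range _) (by
      rintro _ ⟨n, rfl⟩
      exact Set.sub_mem_sub hu0 (show u n ∈ Metric.closedBall (0 : X) 1 by simpa using hu1 n))
      (hB1.sub hB1)
  have hw : WTendsto (fun n => u0 - u n) (V : Filter ℕ) 0 := by
    simpa using (wtendsto_const u0).sub hu
  have h1 := hF.eventually u0 hη' hw (fun n => mem_range_self n)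
  have h2 : ∀ᶠ n in (V : Filter ℕ), |γ n u0| < η' / 4 := by
    have : Tendsto (fun n => |γ n u0|) (V : Filter ℕ) (𝓝 0) := by
      simpa using ((hγ u0).mono_left hV).abs
    exact this.eventually (gt_mem_nhds (by positivity))
  have h3 : ∀ᶠ n in (V : Filter ℕ), |g (u0 - u n)| < η' / 4 := by
    have : Tendsto (fun n => |g (u0 - u n)|) (V : Filter ℕ) (𝓝 0) := by
      simpa using (hw g).abs
    exact this.eventually (gt_mem_nhds (by positivity))
  filter_upwards [h1, h2, h3] with n k1 k2 k3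
  have e1 : u0 - (u0 - u n) = u n := by abel
  rw [e1, one_mul] at k1
  have k4 : ‖u0 + (u0 - u n)‖ ≤ 1 + η' := by linarith [hu1 n]
  -- evaluate
  have e2 : (γ n + g) (u n) = (γ n - g) (-(u0 + (u0 - u n))) + 2 * γ n u0 - 2 * g (u0 - u n) := by
    simp only [add_apply, sub_apply, map_neg, map_add,
      map_sub]
    ring
  have k5 : (γ n - g) (-(u0 + (u0 - u n))) ≤ ‖γ n - g‖ * (1 + η') := by
    calc (γ n - g) (-(u0 + (u0 - u n))) ≤ ‖(γ n - g) (-(u0 + (u0 - u n)))‖ := Real.le_norm_self _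
      _ ≤ ‖γ n - g‖ * ‖-(u0 + (u0 - u n))‖ := (γ n - g).le_opNorm _
      _ ≤ ‖γ n - g‖ * (1 + η') := by rw [norm_neg]; gcongr
  have k6 := hu2 n
  rw [e2] at k6
  have k7 := abs_lt.mp k2
  have k8 := abs_lt.mp k3
  have k9 : ‖γ n - g‖ * η' ≤ M * η' := by gcongr; exact hM n
  nlinarith

theorem hasWORTH_dual [CompleteSpace X] (hX : IsReflexiveSpace X) (hW : HasWORTH X) :
    HasWORTH (StrongDual ℝ X) := by
  intro γ hγ g
  have hγ' : ∀ x : X, Tendsto (fun n => γ n x) atTop (𝓝 0) := fun x => by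
    simpa [NormedSpace.dual_def] using hγ (NormedSpace.inclusionInDoubleDual ℝ X x)
  rw [tendsto_iff_ultrafilter]
  intro V hV
  rw [Metric.tendsto_nhds]
  intro η hη
  have h1 := dual_flip hX hW γ hγ' g V hV (half_pos hη)
  have h2 := dual_flip hX hW γ hγ' (-g) V hV (half_pos hη)
  filter_upwards [h1, h2] with n k1 k2
  rw [sub_neg_eq_add, ← sub_eq_add_neg] at k2
  rw [Real.dist_eq, sub_zero, abs_lt]
  constructor <;> linarith

theorem hasFPP_dual_of_reflexive_worth [CompleteSpace X] (hX : IsReflexiveSpace X)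
    (hW : HasWORTH X) : HasFPP (StrongDual ℝ X) :=
  hasFPP_of_reflexive_worth (isReflexiveSpace_dual hX) (hasWORTH_dual hX hW)

end Vale.Agent.P079
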