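import Vale.Agent.P079.WLim

namespace Vale.Agent.P079

open Set Filter Topology Pointwise

variable {X : Type*} [NormedAddCommGroup X] [NormedSpace ℝ X]

/-- Neighbourhood form of asymptotic sign flipping with constant `c` on the set `L`. -/
def FlipOn (c : ℝ) (L : Set X) : Prop :=
  ∀ x : X, ∀ η > 0, ∃ (I : Finset (StrongDual ℝ X)) (θ : ℝ), 0 < θ ∧
    ∀ b ∈ L, (∀ f ∈ I, |f b| < θ) → ‖x + b‖ ≤ c * ‖x - b‖ + η

variable {ι : Type*} {l : Filter ι}

theorem FlipOn.eventually {c : ℝ} {L : Set X} (hF : FlipOn c L) (x : X) {η : ℝ} (hη : 0 < η)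
    {s : ι → X} (hs : WTendsto s l 0) (hL : ∀ i, s i ∈ L) :
    ∀ᶠ i in l, ‖x + s i‖ ≤ c * ‖x - s i‖ + η := by
  obtain ⟨I, θ, hθ, H⟩ := hF x η hη
  filter_upwards [hs.eventually_small I hθ] with i hi
  exact H _ (hL i) hi

theorem FlipOn.eventually₂ {c : ℝ} {L : Set X} (hF : FlipOn c L) (x : X) {η : ℝ} (hη : 0 < η)
    {κ : Type*} {l' : Filter κ} {s : ι → κ → X} {σ : ι → X}
    (hs : ∀ i, WTendsto (s i) l' (σ i)) (hσ : WTendsto σ l 0) (hL : ∀ i j, s i j ∈ L) :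
    ∀ᶠ i in l, ∀ᶠ j in l', ‖x + s i j‖ ≤ c * ‖x - s i j‖ + η := by
  obtain ⟨I, θ, hθ, H⟩ := hF x η hη
  filter_upwards [hσ.eventually_small I (half_pos hθ)] with i hi
  have h1 : WTendsto (fun j => s i j - σ i) l' 0 := by
    simpa using (hs i).sub (wtendsto_const (σ i))
  filter_upwards [h1.eventually_small I (half_pos hθ)] with j hj
  apply H _ (hL i j)
  intro f hf
  have e : f (s i j) = f (s i j - σ i) + f (σ i) := by simp
  rw [e]
  calc |f (s i j - σ i) + f (σ i)| ≤ |f (s i j - σ i)| + |f (σ i)| := abs_add_le _ _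
    _ < θ := by linarith [hi f hf, hj f hf]

theorem two_norm_le_of_eq {u v w : X} (e : (2 : ℝ) • u = v + w) : 2 * ‖u‖ ≤ ‖v‖ + ‖w‖ := by
  have : ‖(2 : ℝ) • u‖ = 2 * ‖u‖ := by rw [norm_smul]; norm_num
  rw [← this, e]
  exact norm_add_le _ _

theorem flip_arith {c d η N1 N2 N3 Np Ny Nx F2 F3 F4 S D : ℝ} (hc1 : 1 ≤ c)
    (hc : 2 * c ^ 2 + c < 5) (hd0 : 0 < d) (hη : η = d * (5 - c - 2 * c ^ 2) / 64)
    (h1 : N1 ≤ d / 2 + η) (h2 : 2 * N2 ≤ Ny + F2) (h3 : F2 ≤ c * Ny + η) (h4 : Ny ≤ S / 2)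
    (h5 : S ≤ c * D + η) (h6 : D ≤ d) (h7 : 2 * N3 ≤ Nx + F4) (h8 : F4 ≤ c * F3 + η)
    (h9 : F3 ≤ c * Nx + η) (h10 : Nx ≤ d / 2 + η) (h11 : 2 * Np ≤ N1 + N2 + N3)
    (h12 : d - 4 * η < Np) : False := by
  have hc0 : 0 ≤ c := by linarith
  have hc2 : c ≤ 2 := by nlinarith
  have hη0 : 0 < η := by
    rw [hη]
    have : 0 < 5 - c - 2 * c ^ 2 := by linarith
    positivity
  have a1 : c * D ≤ c * d := mul_le_mul_of_nonneg_left h6 hc0
  have a2 : Ny ≤ (c * d + η) / 2 := by linarith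
  have a3 : c * Ny ≤ c * ((c * d + η) / 2) := mul_le_mul_of_nonneg_left a2 hc0
  have a4 : c * Nx ≤ c * (d / 2 + η) := mul_le_mul_of_nonneg_left h10 hc0
  have a5 : F3 ≤ c * (d / 2 + η) + η := by linarith
  have a6 : c * F3 ≤ c * (c * (d / 2 + η) + η) := mul_le_mul_of_nonneg_left a5 hc0
  have a7 : c * η ≤ 2 * η := mul_le_mul_of_nonneg_right hc2 hη0.le
  have a8 : c * (c * η) ≤ 2 * (2 * η) := by
    calc c * (c * η) ≤ c * (2 * η) := mul_le_mul_of_nonneg_left a7 hc0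
      _ ≤ 2 * (2 * η) := mul_le_mul_of_nonneg_right hc2 (by linarith)
  linarith

omit [NormedSpace ℝ X] in
theorem sub_mem_D4 {K : Set X} {u v p : X} (hu : u ∈ K) (hv : v ∈ K) (hp : p ∈ K) :
    u - v ∈ (K - K) + (K - K) := by
  have := Set.add_mem_add (Set.sub_mem_sub hu hv) (Set.sub_mem_sub hp hp)
  simpa using this

theorem flip_core [CompleteSpace X] {T : X → X} {K : Set X} (h : IsMinInv T K) {d : ℝ}
    (hd0 : 0 < d) (hd : ∀ a ∈ K, ∀ b ∈ K, ‖a - b‖ ≤ d)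
    (hd' : ∀ r < d, ∃ a ∈ K, ∃ b ∈ K, r < ‖a - b‖)
    {c : ℝ} (hc1 : 1 ≤ c) (hc : 2 * c ^ 2 + c < 5)
    (hF : ∀ L : Set X, L.Countable → L ⊆ (K - K) + (K - K) → FlipOn c L) : False := by
  -- approximate fixed point sequence
  have hx' : ∀ n : ℕ, ∃ z ∈ K, ‖z - T z‖ ≤ 1 / ((n : ℝ) + 1) := fun n =>
    exists_approx_fixed h.inv h.nonexp hd (by positivity)
  choose x hxK hxT using hx'
  have hUle : ((hyperfilter ℕ : Ultrafilter ℕ) : Filter ℕ) ≤ atTop := Nat.hyperfilter_le_atTop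
  generalize (hyperfilter ℕ : Ultrafilter ℕ) = U at hUle
  obtain ⟨p, hpK, hp⟩ := h.wc.exists_wlim U x hxK
  -- constants
  obtain ⟨η, hη⟩ : ∃ η : ℝ, η = d * (5 - c - 2 * c ^ 2) / 64 := ⟨_, rfl⟩
  have hη0 : 0 < η := by
    rw [hη]
    have : 0 < 5 - c - 2 * c ^ 2 := by linarith
    positivity
  -- Goebel-Karlovitz in uniform form
  obtain ⟨δ, hδ0, hGK⟩ : ∃ δ > 0, ∀ z ∈ K, ‖z - T z‖ < δ → d - 4 * η < ‖z - p‖ := by
    by_contra hcon
    push Not at hcon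
    have := h.goebel_karlovitz hpK (r := d - 4 * η) (fun δ hδ => by
      obtain ⟨z, hzK, hz1, hz2⟩ := hcon δ hδ
      exact ⟨z, hzK, hz1, hz2⟩)
    obtain ⟨a, ha, b, hb, hab⟩ := hd' (d - 4 * η) (by linarith)
    linarith [this a ha b hb]
  -- the parameter of the resolvent
  obtain ⟨t, ht0, ht1, htd⟩ : ∃ t : ℝ, 0 < t ∧ t ≤ 1 ∧ t * d < δ := by
    refine ⟨min 1 (δ / (2 * (d + 1))), lt_min one_pos (by positivity), min_le_left _ _, ?_⟩
    have h1 : min 1 (δ / (2 * (d + 1))) ≤ δ / (2 * (d + 1)) := min_le_right _ _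
    have h2 : min 1 (δ / (2 * (d + 1))) * d ≤ δ / (2 * (d + 1)) * d := by gcongr
    have h3 : δ / (2 * (d + 1)) * d < δ := by
      rw [div_mul_eq_mul_div, div_lt_iff₀ (by positivity)]
      nlinarith
    linarith
  have hJ' : ∀ w ∈ K, ∃ z ∈ K, z = t • w + (1 - t) • T z := fun w hw =>
    exists_resolvent h.inv h.nonexp ht0 ht1 hw
  choose! J hJK hJ using hJ'
  have hJfar : ∀ w ∈ K, d - 4 * η < ‖J w - p‖ := by
    intro w hw
    apply hGK _ (hJK w hw)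
    have := resolvent_displacement ht0.le (hd w hw _ (h.inv.maps (hJK w hw))) (hJ w hw)
    linarith
  have hmid : ∀ n m, (1 / 2 : ℝ) • x n + (1 / 2 : ℝ) • x m ∈ K := fun n m =>
    h.inv.convex (hxK n) (hxK m) (by norm_num) (by norm_num) (by norm_num)
  obtain ⟨z, hz⟩ : ∃ z : ℕ → ℕ → X, ∀ n m, z n m = J ((1 / 2 : ℝ) • x n + (1 / 2 : ℝ) • x m) :=
    ⟨_, fun _ _ => rfl⟩
  have hzK : ∀ n m, z n m ∈ K := fun n m => by rw [hz]; exact hJK _ (hmid n m)
  have hzJ : ∀ n m, z n m = t • ((1 / 2 : ℝ) • x n + (1 / 2 : ℝ) • x m) + (1 - t) • T (z n m) :=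
    fun n m => by rw [hz]; exact hJ _ (hmid n m)
  have ha' : ∀ n, ∃ a ∈ K, WTendsto (z n) (U : Filter ℕ) a :=
    fun n => h.wc.exists_wlim U (z n) (hzK n)
  choose a haK ha using ha'
  obtain ⟨r, hrK, hr⟩ := h.wc.exists_wlim U a haK
  -- the countable set on which flipping is used
  obtain ⟨L, hLdef⟩ : ∃ L : Set X, L = range (fun m => x m - p) ∪
      range (fun q : ℕ × ℕ => r - z q.1 q.2) ∪
      range (fun q : ℕ × ℕ => (r - z q.1 q.2) + (x q.1 - p)) ∪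
      range (fun q : ℕ × ℕ => z q.1 q.2 - a q.1) := ⟨_, rfl⟩
  have hL1 : ∀ m, x m - p ∈ L := fun m => by
    rw [hLdef]; exact Or.inl (Or.inl (Or.inl ⟨m, rfl⟩))
  have hL2 : ∀ n m, r - z n m ∈ L := fun n m => by
    rw [hLdef]; exact Or.inl (Or.inl (Or.inr ⟨(n, m), rfl⟩))
  have hL3 : ∀ n m, (r - z n m) + (x n - p) ∈ L := fun n m => by
    rw [hLdef]; exact Or.inl (Or.inr ⟨(n, m), rfl⟩)
  have hL4 : ∀ n m, z n m - a n ∈ L := fun n m => by
    rw [hLdef]; exact Or.inr ⟨(n, m), rfl⟩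
  have hFL : FlipOn c L := by
    apply hF
    · rw [hLdef]
      exact (((countable_range _).union (countable_range _)).union (countable_range _)).union
        (countable_range _)
    · rw [hLdef]
      rintro _ (((⟨m, rfl⟩ | ⟨q, rfl⟩) | ⟨q, rfl⟩) | ⟨q, rfl⟩)
      · exact sub_mem_D4 (hxK m) hpK hpK
      · exact sub_mem_D4 hrK (hzK _ _) hpK
      · exact Set.add_mem_add (Set.sub_mem_sub hrK (hzK _ _)) (Set.sub_mem_sub (hxK _) hpK)
      · exact sub_mem_D4 (hzK _ _) (haK _) hpK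
  -- smallness of the displacement
  have hsmall : ∀ᶠ m in (U : Filter ℕ), ‖x m - T (x m)‖ / t ≤ η := by
    have h1 : ∀ᶠ m : ℕ in atTop, 1 / ((m : ℝ) + 1) < η * t :=
      tendsto_one_div_add_atTop_nhds_zero_nat.eventually (gt_mem_nhds (by positivity))
    filter_upwards [hUle h1] with m hm
    rw [div_le_iff₀ ht0]
    linarith [hxT m]
  have hmid1 : ∀ n m, ‖(1 / 2 : ℝ) • x n + (1 / 2 : ℝ) • x m - x m‖ ≤ d / 2 := by
    intro n m
    have e : (1 / 2 : ℝ) • x n + (1 / 2 : ℝ) • x m - x m = (1 / 2 : ℝ) • (x n - x m) := by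
      module
    rw [e, norm_smul]
    have := hd _ (hxK n) _ (hxK m)
    norm_num
    linarith
  have hmid2 : ∀ n m, ‖(1 / 2 : ℝ) • x n + (1 / 2 : ℝ) • x m - x n‖ ≤ d / 2 := by
    intro n m
    rw [add_comm]
    exact hmid1 m n
  have hmid3 : ∀ n m, ‖(1 / 2 : ℝ) • x n + (1 / 2 : ℝ) • x m - p‖
      = ‖(x n - p) + (x m - p)‖ / 2 := by
    intro n m
    have e : (1 / 2 : ℝ) • x n + (1 / 2 : ℝ) • x m - p
        = (1 / 2 : ℝ) • ((x n - p) + (x m - p)) := by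
      module
    rw [e, norm_smul]
    norm_num
    ring
  have hξ : WTendsto (fun m => x m - p) (U : Filter ℕ) 0 := by
    simpa using hp.sub (wtendsto_const p)
  -- (A)
  have hA : ∀ n, ‖a n - p‖ ≤ d / 2 + η := by
    intro n
    apply ((ha n).sub hp).norm_le
    filter_upwards [hsmall] with m hm
    have := resolvent_near h.nonexp ht0 ht1 (hzK n m) (hxK m) (hzJ n m)
    linarith [hmid1 n m]
  -- closeness to x n
  have hB : ∀ᶠ n in (U : Filter ℕ), ∀ m, ‖z n m - x n‖ ≤ d / 2 + η := by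
    filter_upwards [hsmall] with n hn m
    have := resolvent_near h.nonexp ht0 ht1 (hzK n m) (hxK n) (hzJ n m)
    linarith [hmid2 n m]
  have hC : ∀ n, ∀ᶠ m in (U : Filter ℕ),
      ‖(x n - p) + (x m - p)‖ ≤ c * ‖(x n - p) - (x m - p)‖ + η :=
    fun n => hFL.eventually (x n - p) hη0 hξ hL1
  have hE4 : ∀ᶠ n in (U : Filter ℕ), ∀ᶠ m in (U : Filter ℕ),
      ‖(r - J p) + (r - z n m)‖ ≤ c * ‖(r - J p) - (r - z n m)‖ + η :=
    hFL.eventually₂ (r - J p) hη0 (σ := fun n => r - a n)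
      (fun n => (wtendsto_const r).sub (ha n))
      (by simpa using (wtendsto_const r).sub hr) hL2
  have hE5 : ∀ᶠ n in (U : Filter ℕ), ∀ᶠ m in (U : Filter ℕ),
      ‖(r - p) + ((r - z n m) + (x n - p))‖ ≤ c * ‖(r - p) - ((r - z n m) + (x n - p))‖ + η :=
    hFL.eventually₂ (r - p) hη0 (σ := fun n => (r - a n) + (x n - p))
      (fun n => ((wtendsto_const r).sub (ha n)).add (wtendsto_const _))
      (by simpa using ((wtendsto_const r).sub hr).add hξ) hL3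
  have hE6 : ∀ n, ∀ᶠ m in (U : Filter ℕ),
      ‖((r - p) - ((a n - r) - (x n - p))) + (z n m - a n)‖
        ≤ c * ‖((r - p) - ((a n - r) - (x n - p))) - (z n m - a n)‖ + η :=
    fun n => hFL.eventually _ hη0 (by simpa using (ha n).sub (wtendsto_const (a n))) (hL4 n)
  have hfinal : ∀ᶠ n in (U : Filter ℕ), ∀ᶠ m in (U : Filter ℕ), False := by
    filter_upwards [hB, hE4, hE5] with n hBn hE4n hE5n
    filter_upwards [hC n, hE4n, hE5n, hE6 n] with m k1 k2 k3 k4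
    have e1 : (x n - p) - (x m - p) = x n - x m := by abel
    have e2 : (r - J p) - (r - z n m) = z n m - J p := by abel
    have e3 : (r - p) - ((r - z n m) + (x n - p)) = z n m - x n := by abel
    have e4 : ((r - p) - ((a n - r) - (x n - p))) - (z n m - a n)
        = (r - p) + ((r - z n m) + (x n - p)) := by abel
    rw [e1] at k1
    rw [e2] at k2
    rw [e3] at k3
    rw [e4] at k4
    have hy : ‖z n m - J p‖ ≤ ‖(x n - p) + (x m - p)‖ / 2 := by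
      rw [← hmid3]
      exact resolvent_nonexp h.nonexp ht0 ht1 (hzK n m) (hJK p hpK) (hzJ n m) (hJ p hpK)
    have q2 : 2 * ‖z n m - r‖ ≤ ‖z n m - J p‖ + ‖(r - J p) + (r - z n m)‖ := by
      have := two_norm_le_of_eq (u := z n m - r) (v := z n m - J p)
        (w := -((r - J p) + (r - z n m))) (by rw [two_smul]; abel)
      rwa [norm_neg] at this
    have q3 : 2 * ‖(r - p) + (z n m - a n)‖ ≤ ‖z n m - x n‖
        + ‖((r - p) - ((a n - r) - (x n - p))) + (z n m - a n)‖ :=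
      two_norm_le_of_eq (by rw [two_smul]; abel)
    have q4 : 2 * ‖z n m - p‖ ≤ ‖a n - p‖ + ‖z n m - r‖ + ‖(r - p) + (z n m - a n)‖ := by
      have := two_norm_le_of_eq (u := z n m - p) (v := (a n - p) + (z n m - r))
        (w := (r - p) + (z n m - a n)) (by rw [two_smul]; abel)
      linarith [norm_add_le (a n - p) (z n m - r)]
    have hfar : d - 4 * η < ‖z n m - p‖ := by rw [hz]; exact hJfar _ (hmid n m)
    exact flip_arith hc1 hc hd0 hη (hA n) q2 k2 hy k1 (hd _ (hxK n) _ (hxK m)) q3 k4 k3 (hBn m)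
      q4 hfar
  obtain ⟨n, hn⟩ := hfinal.exists
  obtain ⟨m, hm⟩ := hn.exists
  exact hm

end Vale.Agent.P079
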