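import Vale.Agent.P079.Weak

namespace Vale.Agent.P079

open Set Filter Topology

variable {X : Type*} [NormedAddCommGroup X] [NormedSpace ℝ X]

structure IsMinInv (T : X → X) (K : Set X) : Prop where
  inv : IsInv T K
  wc : WCompact K
  nonexp : ∀ a ∈ K, ∀ b ∈ K, ‖T a - T b‖ ≤ ‖a - b‖
  min : ∀ D ⊆ K, IsInv T D → D = K

variable {T : X → X} {K : Set X}

theorem IsMinInv.subset_hull (h : IsMinInv T K) : K ⊆ closedConvexHull ℝ (T '' K) := by
  have hsub : closedConvexHull ℝ (T '' K) ⊆ K :=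
    closedConvexHull_min (image_subset_iff.mpr h.inv.maps) h.inv.convex h.inv.closed
  have hD : IsInv T (closedConvexHull ℝ (T '' K)) := by
    refine ⟨?_, isClosed_closedConvexHull, convex_closedConvexHull, ?_⟩
    · obtain ⟨x, hx⟩ := h.inv.nonempty
      exact ⟨T x, subset_closedConvexHull (mem_image_of_mem T hx)⟩
    · intro x hx
      exact subset_closedConvexHull (mem_image_of_mem T (hsub hx))
  exact (h.min _ hsub hD).ge

theorem IsMinInv.diametral (h : IsMinInv T K) {u : X} (hu : u ∈ K) {r : ℝ}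
    (hr : ∀ y ∈ K, ‖u - y‖ ≤ r) : ∀ a ∈ K, ∀ b ∈ K, ‖a - b‖ ≤ r := by
  have hD : IsInv T {v | v ∈ K ∧ ∀ y ∈ K, ‖v - y‖ ≤ r} := by
    refine ⟨⟨u, hu, hr⟩, ?_, ?_, ?_⟩
    · have : {v | v ∈ K ∧ ∀ y ∈ K, ‖v - y‖ ≤ r} = K ∩ ⋂ y ∈ K, Metric.closedBall y r := by
        ext v
        simp [dist_eq_norm]
      rw [this]
      exact h.inv.closed.inter (isClosed_biInter fun y _ => Metric.isClosed_closedBall)
    · have : {v | v ∈ K ∧ ∀ y ∈ K, ‖v - y‖ ≤ r} = K ∩ ⋂ y ∈ K, Metric.closedBall y r := by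
        ext v
        simp [dist_eq_norm]
      rw [this]
      exact h.inv.convex.inter (convex_iInter₂ fun y _ => convex_closedBall y r)
    · rintro v ⟨hvK, hv⟩
      refine ⟨h.inv.maps hvK, ?_⟩
      have hsub : closedConvexHull ℝ (T '' K) ⊆ Metric.closedBall (T v) r := by
        apply closedConvexHull_min _ (convex_closedBall _ _) Metric.isClosed_closedBall
        rintro _ ⟨y, hy, rfl⟩
        rw [mem_closedBall_iff_norm, norm_sub_rev]
        exact (h.nonexp v hvK y hy).trans (hv y hy)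
      intro y hy
      have := hsub (h.subset_hull hy)
      rwa [mem_closedBall_iff_norm, norm_sub_rev] at this
  have hEq := h.min _ (fun v hv => hv.1) hD
  intro a ha b hb
  have : a ∈ {v | v ∈ K ∧ ∀ y ∈ K, ‖v - y‖ ≤ r} := by rw [hEq]; exact ha
  exact this.2 b hb

theorem IsMinInv.goebel_karlovitz (h : IsMinInv T K) {x : X} (hx : x ∈ K) {r : ℝ}
    (hr : ∀ δ > 0, ∃ z ∈ K, ‖z - T z‖ < δ ∧ ‖z - x‖ ≤ r) : ∀ a ∈ K, ∀ b ∈ K, ‖a - b‖ ≤ r := by
  have hr' : ∀ n : ℕ, ∃ z ∈ K, ‖z - T z‖ < 1 / ((n : ℝ) + 1) ∧ ‖z - x‖ ≤ r :=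
    fun n => hr _ (by positivity)
  choose z hzK hzT hzx using hr'
  have hzT0 : Tendsto (fun n => ‖z n - T (z n)‖) atTop (𝓝 0) :=
    squeeze_zero (fun n => norm_nonneg _) (fun n => (hzT n).le)
      tendsto_one_div_add_atTop_nhds_zero_nat
  have hD : IsInv T {v | v ∈ K ∧ ∀ η > 0, ∀ᶠ n in atTop, ‖z n - v‖ ≤ r + η} := by
    refine ⟨⟨x, hx, fun η hη => Eventually.of_forall fun n => by linarith [hzx n]⟩, ?_, ?_, ?_⟩
    · apply isClosed_of_closure_subset
      intro v hv
      refine ⟨h.inv.closed.closure_subset_iff.mpr (fun w hw => hw.1) hv, ?_⟩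
      intro η hη
      obtain ⟨w, hw, hwv⟩ := Metric.mem_closure_iff.mp hv (η / 2) (by positivity)
      filter_upwards [hw.2 (η / 2) (by positivity)] with n hn
      have h1 : ‖z n - v‖ ≤ ‖z n - w‖ + ‖w - v‖ := by
        have := norm_add_le (z n - w) (w - v)
        simpa using this
      have h2 : ‖w - v‖ < η / 2 := by rwa [dist_eq_norm, norm_sub_rev] at hwv
      linarith
    · rintro v ⟨hvK, hv⟩ w ⟨hwK, hw⟩ a b ha hb hab
      refine ⟨h.inv.convex hvK hwK ha hb hab, ?_⟩
      intro η hη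
      filter_upwards [hv η hη, hw η hη] with n hn1 hn2
      have h1 : z n - (a • v + b • w) = a • (z n - v) + b • (z n - w) := by
        have : z n = (a + b) • z n := by rw [hab, one_smul]
        conv_lhs => rw [this]
        simp only [smul_sub, add_smul]
        abel
      rw [h1]
      calc ‖a • (z n - v) + b • (z n - w)‖ ≤ ‖a • (z n - v)‖ + ‖b • (z n - w)‖ := norm_add_le _ _
        _ = a * ‖z n - v‖ + b * ‖z n - w‖ := by
          rw [norm_smul, norm_smul, Real.norm_of_nonneg ha, Real.norm_of_nonneg hb]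
        _ ≤ a * (r + η) + b * (r + η) := by gcongr
        _ = r + η := by rw [← add_mul, hab, one_mul]
    · rintro v ⟨hvK, hv⟩
      refine ⟨h.inv.maps hvK, ?_⟩
      intro η hη
      have h0 : ∀ᶠ n in atTop, ‖z n - T (z n)‖ < η / 2 :=
        hzT0.eventually (gt_mem_nhds (by positivity))
      filter_upwards [hv (η / 2) (by positivity), h0] with n hn1 hn2
      have h1 : ‖z n - T v‖ ≤ ‖z n - T (z n)‖ + ‖T (z n) - T v‖ := by
        have := norm_add_le (z n - T (z n)) (T (z n) - T v)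
        simpa using this
      have h2 := h.nonexp (z n) (hzK n) v hvK
      linarith
  have hEq := h.min _ (fun v hv => hv.1) hD
  have hall : ∀ v ∈ K, ∀ η > 0, ∀ᶠ n in atTop, ‖z n - v‖ ≤ r + η := by
    intro v hv
    have : v ∈ {v | v ∈ K ∧ ∀ η > 0, ∀ᶠ n in atTop, ‖z n - v‖ ≤ r + η} := by rw [hEq]; exact hv
    exact this.2
  have key : ∀ η > 0, ∀ a ∈ K, ∀ b ∈ K, ‖a - b‖ ≤ r + η := by
    intro η hη
    have hne := h.wc.inter_iInter_nonempty (fun y : K => Metric.closedBall (y : X) (r + η))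
      (fun y => Metric.isClosed_closedBall) (fun y => convex_closedBall _ _) (by
        intro u
        have : ∀ᶠ n in atTop, ∀ y ∈ u, ‖z n - (y : X)‖ ≤ r + η := by
          rw [Filter.eventually_all_finset]
          intro y _
          exact hall y y.2 η hη
        obtain ⟨n, hn⟩ := this.exists
        refine ⟨z n, hzK n, ?_⟩
        simp only [mem_iInter]
        intro y hy
        rw [mem_closedBall_iff_norm]
        exact hn y hy)
    obtain ⟨u, huK, hu⟩ := hne
    simp only [mem_iInter] at hu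
    apply h.diametral huK
    intro y hy
    have := hu ⟨y, hy⟩
    rwa [mem_closedBall_iff_norm] at this
  intro a ha b hb
  apply le_of_forall_pos_le_add
  intro η hη
  exact key η hη a ha b hb

end Vale.Agent.P079
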