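import Vale.Agent.P079.WeakCompact

namespace Vale.Agent.P079

open Set Filter Topology Pointwise

variable {X : Type*} [NormedAddCommGroup X] [NormedSpace ℝ X]

theorem flipOn_of_muLe {c : ℝ} (hW : MuLe c X) {L0 L' : Set X} (hc : L0.Countable)
    (hsub : L0 ⊆ L') (hL' : WCompact L') : FlipOn c L0 := by
  intro x η hη
  by_contra hcon
  push Not at hcon
  obtain ⟨b, hb0, hbP⟩ := exists_weaklyNull_seq hc hsub hL'
    (fun b => b ∈ L0 ∧ c * ‖x - b‖ + η < ‖x + b‖) (fun I θ hθ => by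
      obtain ⟨b, hb, h1, h2⟩ := hcon I θ hθ
      exact ⟨b, hb, h1, hb, h2⟩)
  obtain ⟨M, hM⟩ := hL'.isBounded.exists_norm_le
  have hbM : ∀ j, ‖b j‖ ≤ M := fun j => hM _ (hsub (hbP j).1)
  have hbd : Bornology.IsBounded (Metric.closedBall (0 : ℝ) (M + ‖x‖)) :=
    Metric.isBounded_closedBall
  obtain ⟨s, _, φ, hφ, hs⟩ := tendsto_subseq_of_bounded hbd (x := fun j => ‖b j - x‖) (by
    intro j
    rw [mem_closedBall_zero_iff, norm_norm]
    exact (norm_sub_le _ _).trans (by linarith [hbM j]))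
  have hξ0 : ∀ f : StrongDual ℝ X, Tendsto (fun j => f (b (φ j))) atTop (𝓝 0) :=
    fun f => (hb0 f).comp hφ.tendsto_atTop
  have h1 := hW (fun j => b (φ j)) hξ0 x
  have h2 : limsup (fun j => ‖b (φ j) - x‖) atTop = s := hs.limsup_eq
  rw [h2] at h1
  have h3 : Tendsto (fun j => c * ‖b (φ j) - x‖ + η) atTop (𝓝 (c * s + η)) :=
    (hs.const_mul c).add_const η
  have h4 : limsup (fun j => c * ‖b (φ j) - x‖ + η) atTop ≤ limsup (fun j => ‖b (φ j) + x‖) atTop := by
    apply limsup_le_limsup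
    · refine Eventually.of_forall fun j => ?_
      have := (hbP (φ j)).2
      rw [add_comm x, norm_sub_rev x] at this
      exact this.le
    · exact h3.isCoboundedUnder_le
    · exact isBoundedUnder_of ⟨M + ‖x‖, fun j => (norm_add_le _ _).trans (by linarith [hbM (φ j)])⟩
  rw [h3.limsup_eq] at h4
  linarith

theorem hasWeakFPP_of_muLe [CompleteSpace X] {c : ℝ} (hc1 : 1 ≤ c) (hc : 2 * c ^ 2 + c < 5)
    (hW : MuLe c X) : HasWeakFPP X := by
  intro C hCne hCw hCv T hmaps hne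
  have hCw' : WCompact C := hCw
  exact exists_fixed_of_flip hc1 hc
    (fun L0 L' h1 h2 h3 => flipOn_of_muLe hW h1 h2 h3)
    hCw' hCw'.isBounded ⟨hCne, hCw'.isClosed, hCv, hmaps⟩ hne

theorem hasFPP_of_reflexive_muLe [CompleteSpace X] (hX : IsReflexiveSpace X) {c : ℝ}
    (hc1 : 1 ≤ c) (hc : 2 * c ^ 2 + c < 5) (hW : MuLe c X) : HasFPP X := by
  intro C hCne hCcl hCb hCv T hmaps hne
  exact exists_fixed_of_flip hc1 hc
    (fun L0 L' h1 h2 h3 => flipOn_of_muLe hW h1 h2 h3)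
    (wcompact_of_reflexive hX hCcl hCb hCv) hCb ⟨hCne, hCcl, hCv, hmaps⟩ hne

end Vale.Agent.P079
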