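import Vale.Agent.P079.Minimal

namespace Vale.Agent.P079

open Set Filter Topology

variable {X : Type*} [NormedAddCommGroup X] [NormedSpace ℝ X]
variable {T : X → X} {K : Set X}

theorem exists_resolvent [CompleteSpace X] (hinv : IsInv T K)
    (hne : ∀ a ∈ K, ∀ b ∈ K, ‖T a - T b‖ ≤ ‖a - b‖) {t : ℝ} (ht0 : 0 < t) (ht1 : t ≤ 1)
    {w : X} (hw : w ∈ K) : ∃ z ∈ K, z = t • w + (1 - t) • T z := by
  have hmaps : MapsTo (fun z => t • w + (1 - t) • T z) K K := by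
    intro z hz
    exact hinv.convex hw (hinv.maps hz) ht0.le (by linarith) (by ring)
  have hcontr : ContractingWith (1 - t).toNNReal (hmaps.restrict _ K K) := by
    refine ⟨?_, ?_⟩
    · rw [← NNReal.coe_lt_coe, Real.coe_toNNReal _ (by linarith)]
      simp only [NNReal.coe_one]
      linarith
    · apply LipschitzWith.of_dist_le_mul
      rintro ⟨a, ha⟩ ⟨b, hb⟩
      rw [Subtype.dist_eq, Subtype.dist_eq, Real.coe_toNNReal _ (by linarith)]
      simp only [MapsTo.val_restrict_apply]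
      rw [dist_eq_norm, dist_eq_norm]
      have : t • w + (1 - t) • T a - (t • w + (1 - t) • T b) = (1 - t) • (T a - T b) := by
        rw [smul_sub]; abel
      rw [this, norm_smul, Real.norm_of_nonneg (by linarith)]
      exact mul_le_mul_of_nonneg_left (hne a ha b hb) (by linarith)
  obtain ⟨z, hzK, hz, _⟩ := hcontr.exists_fixedPoint' hinv.closed.isComplete hmaps hw
    (edist_ne_top _ _)
  exact ⟨z, hzK, hz.symm⟩

theorem resolvent_displacement {t d : ℝ} (ht0 : 0 ≤ t) {w z : X}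
    (hd : ‖w - T z‖ ≤ d) (hz : z = t • w + (1 - t) • T z) : ‖z - T z‖ ≤ t * d := by
  have : z - T z = t • (w - T z) := by
    have h1 : t • w + (1 - t) • T z - T z = t • (w - T z) := by
      rw [smul_sub, sub_smul, one_smul]; abel
    rw [← h1, ← hz]
  rw [this, norm_smul, Real.norm_of_nonneg ht0]
  exact mul_le_mul_of_nonneg_left hd ht0

theorem resolvent_nonexp (hne : ∀ a ∈ K, ∀ b ∈ K, ‖T a - T b‖ ≤ ‖a - b‖) {t : ℝ} (ht0 : 0 < t)
    (ht1 : t ≤ 1) {w w' z z' : X} (hzK : z ∈ K) (hzK' : z' ∈ K)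
    (hz : z = t • w + (1 - t) • T z) (hz' : z' = t • w' + (1 - t) • T z') :
    ‖z - z'‖ ≤ ‖w - w'‖ := by
  have h1 : z - z' = t • (w - w') + (1 - t) • (T z - T z') := by
    conv_lhs => rw [hz, hz']
    simp only [smul_sub]; abel
  have h2 : ‖z - z'‖ ≤ t * ‖w - w'‖ + (1 - t) * ‖z - z'‖ := by
    calc ‖z - z'‖ = ‖t • (w - w') + (1 - t) • (T z - T z')‖ := by rw [← h1]
      _ ≤ ‖t • (w - w')‖ + ‖(1 - t) • (T z - T z')‖ := norm_add_le _ _
      _ = t * ‖w - w'‖ + (1 - t) * ‖T z - T z'‖ := by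
        rw [norm_smul, norm_smul, Real.norm_of_nonneg ht0.le, Real.norm_of_nonneg (by linarith)]
      _ ≤ t * ‖w - w'‖ + (1 - t) * ‖z - z'‖ := by
        have := hne z hzK z' hzK'
        have h3 : 0 ≤ 1 - t := by linarith
        gcongr
  have h3 : t * ‖z - z'‖ ≤ t * ‖w - w'‖ := by linarith
  exact le_of_mul_le_mul_left h3 ht0

theorem resolvent_near (hne : ∀ a ∈ K, ∀ b ∈ K, ‖T a - T b‖ ≤ ‖a - b‖) {t : ℝ} (ht0 : 0 < t)
    (ht1 : t ≤ 1) {w z x : X} (hzK : z ∈ K) (hxK : x ∈ K)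
    (hz : z = t • w + (1 - t) • T z) :
    ‖z - x‖ ≤ ‖w - x‖ + ‖x - T x‖ / t := by
  have h1 : z - x = t • (w - x) + (1 - t) • ((T z - T x) + (T x - x)) := by
    conv_lhs => rw [hz]
    have : x = t • x + (1 - t) • x := by rw [← add_smul]; simp
    conv_lhs => rw [this]
    simp only [smul_sub, smul_add]; abel
  have h0 : 0 ≤ 1 - t := by linarith
  have h2 : ‖z - x‖ ≤ t * ‖w - x‖ + (1 - t) * (‖z - x‖ + ‖x - T x‖) := by
    calc ‖z - x‖ = ‖t • (w - x) + (1 - t) • ((T z - T x) + (T x - x))‖ := by rw [← h1]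
      _ ≤ ‖t • (w - x)‖ + ‖(1 - t) • ((T z - T x) + (T x - x))‖ := norm_add_le _ _
      _ = t * ‖w - x‖ + (1 - t) * ‖(T z - T x) + (T x - x)‖ := by
        rw [norm_smul, norm_smul, Real.norm_of_nonneg ht0.le, Real.norm_of_nonneg h0]
      _ ≤ t * ‖w - x‖ + (1 - t) * (‖z - x‖ + ‖x - T x‖) := by
        have h3 := hne z hzK x hxK
        have h4 : ‖(T z - T x) + (T x - x)‖ ≤ ‖T z - T x‖ + ‖T x - x‖ := norm_add_le _ _
        rw [norm_sub_rev (T x) x] at h4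
        gcongr
        linarith
  have h5 : 0 ≤ ‖x - T x‖ := norm_nonneg _
  have h3 : t * ‖z - x‖ ≤ t * (‖w - x‖ + ‖x - T x‖ / t) := by
    rw [mul_add, mul_div_cancel₀ _ ht0.ne']
    nlinarith
  exact le_of_mul_le_mul_left h3 ht0

theorem exists_approx_fixed [CompleteSpace X] (hinv : IsInv T K)
    (hne : ∀ a ∈ K, ∀ b ∈ K, ‖T a - T b‖ ≤ ‖a - b‖) {d : ℝ}
    (hd : ∀ a ∈ K, ∀ b ∈ K, ‖a - b‖ ≤ d) {δ : ℝ} (hδ : 0 < δ) :
    ∃ z ∈ K, ‖z - T z‖ ≤ δ := by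
  obtain ⟨w, hw⟩ := hinv.nonempty
  have hd0 : 0 ≤ d := (norm_nonneg _).trans (hd w hw w hw)
  have ht0 : 0 < min 1 (δ / (d + 1)) := lt_min one_pos (by positivity)
  obtain ⟨z, hzK, hz⟩ := exists_resolvent hinv hne ht0 (min_le_left _ _) hw
  refine ⟨z, hzK, ?_⟩
  have h1 := resolvent_displacement ht0.le (hd w hw (T z) (hinv.maps hzK)) hz
  have h2 : min 1 (δ / (d + 1)) * d ≤ δ / (d + 1) * (d + 1) := by
    have := min_le_right 1 (δ / (d + 1))
    have h3 : 0 ≤ δ / (d + 1) := by positivity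
    nlinarith
  rw [div_mul_cancel₀ _ (by positivity)] at h2
  linarith

theorem IsMinInv.exists_cluster [CompleteSpace X] (h : IsMinInv T K) {d : ℝ}
    (hd : ∀ a ∈ K, ∀ b ∈ K, ‖a - b‖ ≤ d) :
    ∃ p ∈ K, ∀ δ > 0, ∀ U ∈ 𝓝 (toWeakSpace ℝ X p),
      ∃ x ∈ K, ‖x - T x‖ ≤ δ ∧ toWeakSpace ℝ X x ∈ U := by
  have hcl : IsClosed (toWeakSpace ℝ X '' K) :=
    isClosed_image_toWeakSpace h.inv.closed h.inv.convex
  have hsub : ∀ n : ℕ, closure (toWeakSpace ℝ X '' {x | x ∈ K ∧ ‖x - T x‖ ≤ 1 / ((n : ℝ) + 1)}) ⊆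
      toWeakSpace ℝ X '' K := fun n =>
    hcl.closure_subset_iff.mpr (image_mono fun x hx => hx.1)
  have hne := IsCompact.nonempty_iInter_of_sequence_nonempty_isCompact_isClosed
    (fun n : ℕ => closure (toWeakSpace ℝ X '' {x | x ∈ K ∧ ‖x - T x‖ ≤ 1 / ((n : ℝ) + 1)}))
    (by
      intro n
      apply closure_mono
      apply image_mono
      rintro x ⟨hxK, hx⟩
      refine ⟨hxK, hx.trans ?_⟩
      apply one_div_le_one_div_of_le (by positivity)
      push_cast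
      linarith)
    (by
      intro n
      obtain ⟨z, hzK, hz⟩ := exists_approx_fixed h.inv h.nonexp hd
        (show (0 : ℝ) < 1 / ((n : ℝ) + 1) by positivity)
      exact ⟨toWeakSpace ℝ X z, subset_closure (mem_image_of_mem _ ⟨hzK, hz⟩)⟩)
    (IsCompact.of_isClosed_subset h.wc isClosed_closure (hsub 0))
    (fun n => isClosed_closure)
  obtain ⟨q, hq⟩ := hne
  simp only [mem_iInter] at hq
  obtain ⟨p, hpK, rfl⟩ := hsub 0 (hq 0)
  refine ⟨p, hpK, ?_⟩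
  intro δ hδ U hU
  obtain ⟨n, hn⟩ := exists_nat_one_div_lt hδ
  obtain ⟨y, hyU, x, ⟨hxK, hx⟩, rfl⟩ := mem_closure_iff_nhds.mp (hq n) U hU
  exact ⟨x, hxK, hx.trans hn.le, hyU⟩

end Vale.Agent.P079
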