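import Vale.Agent.P079.Core

namespace Vale.Agent.P079

open Set Filter Topology

variable {X : Type*} [NormedAddCommGroup X] [NormedSpace ℝ X]

def BlockAveraging (b : SchauderBasis ℝ X) : Prop :=
  ∀ (ξ : ℕ → X) (m : ℕ → ℕ) (d : ℝ), StrictMono m → 0 < d → (∀ j, ‖ξ j‖ ≤ d) →
    (∀ i j, ‖ξ i - ξ j‖ ≤ d) →
    (∀ j, ‖ξ j - GeneralSchauderBasis.proj b (Finset.Ico (m j) (m (j + 1))) (ξ j)‖
      ≤ 1 / ((j : ℝ) + 1)) →
    ∃ k : ℕ, 0 < k ∧ ∃ γ : ℝ, γ < 1 ∧ ∀ r : ℕ, ∃ A : Finset ℕ, (∀ j ∈ A, r ≤ j) ∧ A.card = k ∧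
      ‖∑ j ∈ A, ξ j‖ ≤ k * γ * d

theorem hasFPP_of_blockAveraging [CompleteSpace X] (hX : IsReflexiveSpace X)
    (b : SchauderBasis ℝ X) (hS : SuppressionOneUnconditional b) (hB : BlockAveraging b) :
    HasFPP X := by
  intro C hCne hCcl hCb hCv T hmaps hne
  by_contra hno
  have hCw : WCompact C := wcompact_of_reflexive hX hCcl hCb hCv
  obtain ⟨K, hKC, hKinv, hKmin⟩ := exists_minimal_invariant hCw ⟨hCne, hCcl, hCv, hmaps⟩
  have h : IsMinInv T K := ⟨hKinv, hCw.mono hKC hKinv.closed hKinv.convex,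
    fun a ha c hc => hne a (hKC ha) c (hKC hc), hKmin⟩
  have hKb : Bornology.IsBounded K := hCb.subset hKC
  have hd : ∀ a ∈ K, ∀ c ∈ K, ‖a - c‖ ≤ Metric.diam K := by
    intro a ha c hc
    rw [← dist_eq_norm]
    exact Metric.dist_le_diam_of_mem hKb ha hc
  have hd0 : 0 < Metric.diam K := by
    by_contra hle
    obtain ⟨x, hx⟩ := hKinv.nonempty
    have h1 := hd (T x) (hKinv.maps hx) x hx
    have h2 : ‖T x - x‖ ≤ 0 := by linarith
    have h3 : T x = x := by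
      rw [← sub_eq_zero]; exact norm_le_zero_iff.mp h2
    exact hno ⟨x, hKC hx, h3⟩
  have hd' : ∀ r < Metric.diam K, ∃ a ∈ K, ∃ c ∈ K, r < ‖a - c‖ := by
    intro r hr
    by_contra hcon
    push Not at hcon
    obtain ⟨x, hx⟩ := hKinv.nonempty
    have hr0 : 0 ≤ r := by simpa using hcon x hx x hx
    have : Metric.diam K ≤ r := Metric.diam_le_of_forall_dist_le hr0
      (fun a ha c hc => by rw [dist_eq_norm]; exact hcon a ha c hc)
    linarith
  obtain ⟨p, hpK, hp⟩ := h.exists_cluster hd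
  obtain ⟨x, m, hm, hx⟩ := exists_block_seq (b := b) hp
  obtain ⟨k, hk, γ, hγ, H⟩ := hB (fun j => x j - p) m (Metric.diam K) hm hd0
    (fun j => hd _ (hx j).1 _ hpK)
    (fun i j => by simpa using hd _ (hx i).1 _ (hx j).1)
    (fun j => (hx j).2.2)
  exact core_contradiction hS h hd0 hd hd' hpK hm hx hk hγ H

end Vale.Agent.P079
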