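import Vale.Agent.P079.Dual

namespace Vale.Agent.P079

open Set Filter Topology Pointwise

universe u

variable {Y : Type*} [NormedAddCommGroup Y] [NormedSpace ℝ Y]

theorem norm_flip_head {b : SchauderBasis ℝ Y} (hU : OneUnconditional b) (N : ℕ) (y : Y) :
    ‖y - (2 : ℝ) • SchauderBasis.proj b N y‖ = ‖y‖ := by
  have h1 : Tendsto (fun M => ‖SchauderBasis.proj b M y - (2 : ℝ) • SchauderBasis.proj b N y‖)
      atTop (𝓝 ‖y - (2 : ℝ) • SchauderBasis.proj b N y‖) :=
    ((SchauderBasis.tendsto_proj b y).sub_const _).norm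
  have h2 : Tendsto (fun M => ‖SchauderBasis.proj b M y‖) atTop (𝓝 ‖y‖) :=
    (SchauderBasis.tendsto_proj b y).norm
  refine tendsto_nhds_unique (h1.congr' ?_) h2
  filter_upwards [eventually_ge_atTop N] with M hM
  have e : SchauderBasis.proj b M y - (2 : ℝ) • SchauderBasis.proj b N y
      = ∑ i ∈ Finset.range M, ((if i < N then (-1 : ℝ) else 1) * b.coord i y) • b i := by
    rw [SchauderBasis.proj_apply, SchauderBasis.proj_apply]
    have hsub : Finset.range N ⊆ Finset.range M := Finset.range_mono hM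
    rw [← Finset.sum_sdiff hsub, ← Finset.sum_sdiff hsub]
    have e1 : ∑ i ∈ Finset.range N, ((if i < N then (-1 : ℝ) else 1) * b.coord i y) • b i
        = - ∑ i ∈ Finset.range N, b.coord i y • b i := by
      rw [← Finset.sum_neg_distrib]
      apply Finset.sum_congr rfl
      intro i hi
      rw [if_pos (Finset.mem_range.mp hi)]
      simp
    have e2 : ∑ i ∈ Finset.range M \ Finset.range N,
        ((if i < N then (-1 : ℝ) else 1) * b.coord i y) • b i
        = ∑ i ∈ Finset.range M \ Finset.range N, b.coord i y • b i := by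
      apply Finset.sum_congr rfl
      intro i hi
      have : ¬ i < N := by
        have := (Finset.mem_sdiff.mp hi).2
        simpa using this
      rw [if_neg this]
      simp
    rw [e1, e2, two_smul]
    abel
  rw [e, hU _ _ _ (fun n => by split_ifs <;> simp), SchauderBasis.proj_apply]

theorem hasWORTH_of_oneUnconditional {b : SchauderBasis ℝ Y} (hU : OneUnconditional b) :
    HasWORTH Y := by
  intro ξ hξ x
  rw [Metric.tendsto_nhds]
  intro η hη
  obtain ⟨N, hN⟩ : ∃ N, ‖SchauderBasis.proj b N x - x‖ < η / 8 := by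
    have := (Metric.tendsto_nhds.mp (SchauderBasis.tendsto_proj b x)) (η / 8) (by positivity)
    obtain ⟨N, hN⟩ := this.exists
    exact ⟨N, by rwa [dist_eq_norm] at hN⟩
  have hP : Tendsto (fun n => SchauderBasis.proj b N (ξ n)) atTop (𝓝 0) := by
    simp only [SchauderBasis.proj_apply]
    have : Tendsto (fun n => ∑ i ∈ Finset.range N, b.coord i (ξ n) • b i) atTop
        (𝓝 (∑ i ∈ Finset.range N, (0 : ℝ) • b i)) :=
      tendsto_finsetSum _ fun i _ => (hξ (b.coord i)).smul_const _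
    simpa using this
  have hP' : ∀ᶠ n in atTop, ‖SchauderBasis.proj b N (ξ n)‖ < η / 8 := by
    have := (Metric.tendsto_nhds.mp hP) (η / 8) (by positivity)
    filter_upwards [this] with n hn
    rwa [dist_eq_norm, sub_zero] at hn
  filter_upwards [hP'] with n hn
  have h1 := norm_flip_head hU N (ξ n + x)
  have e : (ξ n + x) - (2 : ℝ) • SchauderBasis.proj b N (ξ n + x)
      = (ξ n - x) - ((2 : ℝ) • (SchauderBasis.proj b N x - x)
        + (2 : ℝ) • SchauderBasis.proj b N (ξ n)) := by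
    rw [map_add]
    simp only [two_smul]
    abel
  rw [e] at h1
  have h2 : ‖(2 : ℝ) • (SchauderBasis.proj b N x - x)
      + (2 : ℝ) • SchauderBasis.proj b N (ξ n)‖ < η / 2 := by
    calc _ ≤ ‖(2 : ℝ) • (SchauderBasis.proj b N x - x)‖
          + ‖(2 : ℝ) • SchauderBasis.proj b N (ξ n)‖ := norm_add_le _ _
      _ = 2 * ‖SchauderBasis.proj b N x - x‖ + 2 * ‖SchauderBasis.proj b N (ξ n)‖ := by
          rw [norm_smul, norm_smul]; norm_num
      _ < η / 2 := by linarith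
  have h3 := abs_norm_sub_norm_le (ξ n - x) ((ξ n - x) - ((2 : ℝ) • (SchauderBasis.proj b N x - x)
        + (2 : ℝ) • SchauderBasis.proj b N (ξ n)))
  rw [h1, sub_sub_cancel] at h3
  rw [Real.dist_eq, sub_zero, abs_sub_comm]
  linarith

variable {X : Type*} [NormedAddCommGroup X] [NormedSpace ℝ X]

theorem bounded_of_weaklyNull {ξ : ℕ → X}
    (hξ : ∀ f : StrongDual ℝ X, Tendsto (fun n => f (ξ n)) atTop (𝓝 0)) :
    ∃ M, ∀ n, ‖ξ n‖ ≤ M := by
  have hpt : ∀ f : StrongDual ℝ X, ∃ C, ∀ n,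
      ‖NormedSpace.inclusionInDoubleDual ℝ X (ξ n) f‖ ≤ C := by
    intro f
    obtain ⟨C, hC⟩ := (Metric.isBounded_range_of_tendsto _ (hξ f)).exists_norm_le
    exact ⟨C, fun n => hC _ (mem_range_self n)⟩
  obtain ⟨M, hM⟩ := banach_steinhaus hpt
  refine ⟨M, fun n => ?_⟩
  have := hM n
  rwa [← (NormedSpace.inclusionInDoubleDualLi (E := X) ℝ).norm_map (ξ n)]

/-- one-sided estimate obtained from an almost isometric embedding into a space with WORTH -/
theorem worth_half_of_embeddings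
    (h : ∀ δ > 0, ∃ (Z : Type u) (_ : NormedAddCommGroup Z) (_ : NormedSpace ℝ Z)
      (J : X →L[ℝ] Z), HasWORTH Z ∧ ∀ x, ‖x‖ ≤ ‖J x‖ ∧ ‖J x‖ ≤ (1 + δ) * ‖x‖)
    {ξ : ℕ → X} (hξ : ∀ f : StrongDual ℝ X, Tendsto (fun n => f (ξ n)) atTop (𝓝 0)) (x : X)
    {η : ℝ} (hη : 0 < η) : ∀ᶠ n in atTop, ‖ξ n + x‖ - ‖ξ n - x‖ < η := by
  obtain ⟨M, hM⟩ := bounded_of_weaklyNull hξ
  have hM0 : 0 ≤ M := (norm_nonneg _).trans (hM 0)
  obtain ⟨Z, _, _, J, hZ, hJ⟩ := h (η / (2 * (M + ‖x‖ + 1))) (by positivity)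
  have hJξ : ∀ g : StrongDual ℝ Z, Tendsto (fun n => g (J (ξ n))) atTop (𝓝 0) :=
    fun g => hξ (g.comp J)
  have h1 := (hZ (fun n => J (ξ n)) hJξ (J x)).eventually (gt_mem_nhds (half_pos hη))
  filter_upwards [h1] with n hn
  have h2 := (hJ (ξ n + x)).1
  have h3 := (hJ (ξ n - x)).2
  rw [map_add] at h2
  rw [map_sub] at h3
  have h4 : ‖ξ n - x‖ ≤ M + ‖x‖ := (norm_sub_le _ _).trans (by linarith [hM n])
  have h5 : η / (2 * (M + ‖x‖ + 1)) * ‖ξ n - x‖ ≤ η / 2 := by
    have h6 : η / (2 * (M + ‖x‖ + 1)) * ‖ξ n - x‖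
        ≤ η / (2 * (M + ‖x‖ + 1)) * (M + ‖x‖ + 1) := by
      gcongr
      linarith
    have h7 : η / (2 * (M + ‖x‖ + 1)) * (M + ‖x‖ + 1) = η / 2 := by
      field_simp
    linarith
  nlinarith

theorem hasWORTH_of_embeddings
    (h : ∀ δ > 0, ∃ (Z : Type u) (_ : NormedAddCommGroup Z) (_ : NormedSpace ℝ Z)
      (J : X →L[ℝ] Z), HasWORTH Z ∧ ∀ x, ‖x‖ ≤ ‖J x‖ ∧ ‖J x‖ ≤ (1 + δ) * ‖x‖) :
    HasWORTH X := by
  intro ξ hξ x
  rw [Metric.tendsto_nhds]
  intro η hη
  have h1 := worth_half_of_embeddings h hξ x hη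
  have h2 := worth_half_of_embeddings h hξ (-x) hη
  filter_upwards [h1, h2] with n k1 k2
  rw [sub_neg_eq_add, ← sub_eq_add_neg] at k2
  rw [Real.dist_eq, sub_zero, abs_lt]
  constructor <;> linarith

end Vale.Agent.P079
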