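import Vale.Agent.P079.Resolvent

namespace Vale.Agent.P079

open Set Filter Topology Pointwise

variable {X : Type*} [NormedAddCommGroup X] [NormedSpace ℝ X]

/-- Weak convergence along a filter, in functional form. -/
def WTendsto {ι : Type*} (s : ι → X) (l : Filter ι) (a : X) : Prop :=
  ∀ f : StrongDual ℝ X, Tendsto (fun i => f (s i)) l (𝓝 (f a))

variable {ι : Type*} {l : Filter ι} {s s' : ι → X} {a a' : X}

theorem WTendsto.sub (h : WTendsto s l a) (h' : WTendsto s' l a') :
    WTendsto (fun i => s i - s' i) l (a - a') := by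
  intro f
  simpa using (h f).sub (h' f)

theorem WTendsto.add (h : WTendsto s l a) (h' : WTendsto s' l a') :
    WTendsto (fun i => s i + s' i) l (a + a') := by
  intro f
  simpa using (h f).add (h' f)

theorem wtendsto_const (a : X) : WTendsto (fun _ : ι => a) l a := fun _ => tendsto_const_nhds

theorem WTendsto.mono_left {l' : Filter ι} (h : WTendsto s l a) (hl : l' ≤ l) :
    WTendsto s l' a := fun f => (h f).mono_left hl

theorem WTendsto.norm_le [NeBot l] (h : WTendsto s l a) {c : ℝ} (hc : ∀ᶠ i in l, ‖s i‖ ≤ c) :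
    ‖a‖ ≤ c := by
  obtain ⟨g, hg1, hga⟩ := exists_dual_vector'' ℝ a
  have hga' : g a = ‖a‖ := by simpa using hga
  rw [← hga']
  apply le_of_tendsto (h g)
  filter_upwards [hc] with i hi
  calc g (s i) ≤ ‖g (s i)‖ := Real.le_norm_self _
    _ ≤ ‖g‖ * ‖s i‖ := g.le_opNorm _
    _ ≤ 1 * ‖s i‖ := by gcongr
    _ ≤ c := by linarith

theorem WTendsto.mem_of_closed_convex [NeBot l] (h : WTendsto s l a) {D : Set X}
    (hD : IsClosed D) (hv : Convex ℝ D) (hs : ∀ᶠ i in l, s i ∈ D) : a ∈ D := by
  by_contra hna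
  obtain ⟨f, u, hf, hu⟩ := geometric_hahn_banach_closed_point hv hD hna
  have : f a ≤ u := by
    apply le_of_tendsto (h f)
    filter_upwards [hs] with i hi
    exact (hf _ hi).le
  linarith

theorem WCompact.exists_wlim {K : Set X} (hK : WCompact K) (U : Ultrafilter ι) (s : ι → X)
    (hs : ∀ i, s i ∈ K) : ∃ a ∈ K, WTendsto s (U : Filter ι) a := by
  obtain ⟨y, ⟨a, haK, rfl⟩, hy⟩ := hK.ultrafilter_le_nhds
    (U.map (fun i => toWeakSpace ℝ X (s i))) (by
      rw [le_principal_iff]
      change _ ∈ Filter.map _ (U : Filter ι)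
      rw [mem_map]
      exact Filter.univ_mem' fun i => mem_image_of_mem _ (hs i))
  refine ⟨a, haK, ?_⟩
  intro f
  have hc : Continuous fun y : WeakSpace ℝ X => (topDualPairing ℝ X).flip y f :=
    WeakBilin.eval_continuous (topDualPairing ℝ X).flip f
  have h1 : Tendsto (fun i => toWeakSpace ℝ X (s i)) (U : Filter ι) (𝓝 (toWeakSpace ℝ X a)) := hy
  exact (hc.tendsto _).comp h1

theorem WTendsto.eventually_small (h : WTendsto s l 0) (I : Finset (StrongDual ℝ X)) {θ : ℝ}
    (hθ : 0 < θ) : ∀ᶠ i in l, ∀ f ∈ I, |f (s i)| < θ := by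
  rw [Filter.eventually_all_finset]
  intro f _
  have h1 : Tendsto (fun i => |f (s i)|) l (𝓝 0) := by
    have := (h f).abs
    simpa using this
  exact h1.eventually (gt_mem_nhds hθ)

theorem WCompact.sub {A B : Set X} (hA : WCompact A) (hB : WCompact B) : WCompact (A - B) := by
  unfold WCompact at *
  rw [Set.image_sub, ← Set.sub_image_prod]
  exact (hA.prod hB).image continuous_sub

theorem WCompact.add {A B : Set X} (hA : WCompact A) (hB : WCompact B) : WCompact (A + B) := by
  unfold WCompact at *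
  rw [Set.image_add]
  exact hA.add hB

end Vale.Agent.P079
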