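import Vale.Agent.P079.Defs

namespace Vale.Agent.P079

open Set Filter Topology

variable {X : Type*} [NormedAddCommGroup X] [NormedSpace ℝ X]

def WCompact (C : Set X) : Prop := IsCompact (toWeakSpace ℝ X '' C)

theorem isClosed_image_toWeakSpace {D : Set X} (hc : IsClosed D) (hv : Convex ℝ D) :
    IsClosed (toWeakSpace ℝ X '' D) := by
  have h := hv.toWeakSpace_closure ℝ
  rw [hc.closure_eq] at h
  rw [h]
  exact isClosed_closure

theorem wcompact_of_reflexive (hX : IsReflexiveSpace X) {C : Set X} (hc : IsClosed C)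
    (hb : Bornology.IsBounded C) (hv : Convex ℝ C) : WCompact C := by
  have h1 : IsCompact (closure (toWeakSpace ℝ X '' C)) := by
    apply NormedSpace.isCompact_closure_of_isBounded ℝ X
    · rw [Set.preimage_image_eq _ (toWeakSpace ℝ X).injective]
      exact hb
    · intro φ _
      obtain ⟨x, hx⟩ := hX (WeakDual.toStrongDual φ)
      refine ⟨toWeakSpace ℝ X x, ?_⟩
      apply DFunLike.ext
      intro f
      have := congrArg (fun g => g f) hx
      exact this
  rwa [(isClosed_image_toWeakSpace hc hv).closure_eq] at h1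

theorem WCompact.inter_iInter_nonempty {K : Set X} (hK : WCompact K) {ι : Type*} (D : ι → Set X)
    (hc : ∀ i, IsClosed (D i)) (hv : ∀ i, Convex ℝ (D i))
    (hfin : ∀ u : Finset ι, (K ∩ ⋂ i ∈ u, D i).Nonempty) : (K ∩ ⋂ i, D i).Nonempty := by
  have h := IsCompact.inter_iInter_nonempty hK (fun i => toWeakSpace ℝ X '' D i)
    (fun i => isClosed_image_toWeakSpace (hc i) (hv i)) (by
      intro u
      obtain ⟨x, hxK, hx⟩ := hfin u
      refine ⟨toWeakSpace ℝ X x, mem_image_of_mem _ hxK, ?_⟩
      simp only [mem_iInter] at hx ⊢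
      exact fun i hi => mem_image_of_mem _ (hx i hi))
  obtain ⟨y, ⟨x, hxK, rfl⟩, hy⟩ := h
  refine ⟨x, hxK, ?_⟩
  simp only [mem_iInter] at hy ⊢
  intro i
  obtain ⟨x', hx', he⟩ := hy i
  rwa [← (toWeakSpace ℝ X).injective he]

structure IsInv (T : X → X) (D : Set X) : Prop where
  nonempty : D.Nonempty
  closed : IsClosed D
  convex : Convex ℝ D
  maps : MapsTo T D D

theorem exists_minimal_invariant {C : Set X} (hC : WCompact C) {T : X → X} (h : IsInv T C) :
    ∃ K ⊆ C, IsInv T K ∧ ∀ D ⊆ K, IsInv T D → D = K := by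
  obtain ⟨K, hKC, hK⟩ := zorn_superset_nonempty {D : Set X | D ⊆ C ∧ IsInv T D} (by
    intro c hcS hchain hne
    refine ⟨⋂₀ c, ⟨?_, ?_, ?_, ?_, ?_⟩, fun s hs => sInter_subset_of_mem hs⟩
    · obtain ⟨D0, hD0⟩ := hne
      exact (sInter_subset_of_mem hD0).trans (hcS hD0).1
    · have hfin : ∀ u : Finset c, ∃ D ∈ c, D ⊆ ⋂ i ∈ u, (i : Set X) := by
        intro u
        induction u using Finset.induction_on with
        | empty =>
          obtain ⟨D0, hD0⟩ := hne
          exact ⟨D0, hD0, by simp⟩
        | insert a u _ ih =>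
          obtain ⟨D, hD, hDu⟩ := ih
          rcases hchain.total hD a.2 with h1 | h1
          · refine ⟨D, hD, ?_⟩
            intro x hx
            simp only [Finset.mem_insert, mem_iInter]
            rintro i (rfl | hi)
            · exact h1 hx
            · have := hDu hx
              simp only [mem_iInter] at this
              exact this i hi
          · refine ⟨a, a.2, ?_⟩
            intro x hx
            simp only [Finset.mem_insert, mem_iInter]
            rintro i (rfl | hi)
            · exact hx
            · have := hDu (h1 hx)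
              simp only [mem_iInter] at this
              exact this i hi
      have := hC.inter_iInter_nonempty (fun i : c => (i : Set X))
        (fun i => (hcS i.2).2.closed) (fun i => (hcS i.2).2.convex) (by
          intro u
          obtain ⟨D, hD, hDu⟩ := hfin u
          obtain ⟨x, hx⟩ := (hcS hD).2.nonempty
          exact ⟨x, (hcS hD).1 hx, hDu hx⟩)
      obtain ⟨x, _, hx⟩ := this
      refine ⟨x, ?_⟩
      simp only [mem_iInter] at hx
      intro D hD
      exact hx ⟨D, hD⟩
    · exact isClosed_sInter fun D hD => (hcS hD).2.closed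
    · exact convex_sInter fun D hD => (hcS hD).2.convex
    · intro x hx D hD
      exact (hcS hD).2.maps (hx D hD)) C ⟨Subset.rfl, h⟩
  refine ⟨K, hKC, hK.prop.2, ?_⟩
  intro D hDK hD
  exact Subset.antisymm hDK (hK.le_of_le ⟨hDK.trans hKC, hD⟩ hDK)

theorem WCompact.mono {C K : Set X} (hC : WCompact C) (hKC : K ⊆ C) (hc : IsClosed K)
    (hv : Convex ℝ K) : WCompact K :=
  IsCompact.of_isClosed_subset hC (isClosed_image_toWeakSpace hc hv) (image_mono hKC)

end Vale.Agent.P079
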