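import Vale.Agent.P079.WorthTop

namespace Vale.Agent.P079

open Set Filter Topology Pointwise

variable {X : Type*} [NormedAddCommGroup X] [NormedSpace ℝ X]

theorem WCompact.isClosed {C : Set X} (hC : WCompact C) : IsClosed C := by
  apply isClosed_of_closure_subset
  intro x hx
  obtain ⟨c, hcC, hcx⟩ := mem_closure_iff_seq_limit.mp hx
  obtain ⟨a, haC, ha⟩ := hC.exists_wlim (hyperfilter ℕ) c hcC
  have hax : a = x := by
    rw [SeparatingDual.eq_iff_forall_dual_eq (R := ℝ)]
    intro f
    have h1 : Tendsto (fun n => f (c n)) (hyperfilter ℕ : Filter ℕ) (𝓝 (f x)) :=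
      ((f.continuous.tendsto x).comp hcx).mono_left Nat.hyperfilter_le_atTop
    exact tendsto_nhds_unique (ha f) h1
  rwa [← hax]

theorem WCompact.isBounded {C : Set X} (hC : WCompact C) : Bornology.IsBounded C := by
  have hpt : ∀ f : StrongDual ℝ X, ∃ M, ∀ x : C,
      ‖NormedSpace.inclusionInDoubleDual ℝ X (x : X) f‖ ≤ M := by
    intro f
    have hc : Continuous fun y : WeakSpace ℝ X => (topDualPairing ℝ X).flip y f :=
      WeakBilin.eval_continuous (topDualPairing ℝ X).flip f
    have hb := (IsCompact.image hC hc).isBounded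
    obtain ⟨M, hM⟩ := hb.exists_norm_le
    refine ⟨M, ?_⟩
    rintro ⟨x, hx⟩
    exact hM _ (mem_image_of_mem _ (mem_image_of_mem _ hx))
  obtain ⟨M, hM⟩ := banach_steinhaus hpt
  rw [isBounded_iff_forall_norm_le]
  refine ⟨M, ?_⟩
  intro x hx
  have := hM ⟨x, hx⟩
  rwa [← (NormedSpace.inclusionInDoubleDualLi (E := X) ℝ).norm_map x]

theorem hasWeakFPP_of_worth [CompleteSpace X] (hW : HasWORTH X) : HasWeakFPP X := by
  intro C hCne hCw hCv T hmaps hne
  have hCw' : WCompact C := hCw
  exact exists_fixed_of_flip le_rfl (by norm_num)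
    (fun L0 L' h1 h2 h3 => flipOn_of_worth hW h1 h2 h3)
    hCw' hCw'.isBounded ⟨hCne, hCw'.isClosed, hCv, hmaps⟩ hne

end Vale.Agent.P079
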