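import Vale.Agent.P079.Bridge

namespace Vale.Agent.P079

open Set Filter Topology Pointwise

variable {X : Type*} [NormedAddCommGroup X] [NormedSpace ℝ X]

theorem exists_fixed_of_no_minimal {C : Set X} {T : X → X} (hCw : WCompact C)
    (hCb : Bornology.IsBounded C) (hinv : IsInv T C)
    (hne : ∀ a ∈ C, ∀ b ∈ C, ‖T a - T b‖ ≤ ‖a - b‖)
    (H : ∀ K : Set X, IsMinInv T K → ∀ d : ℝ, 0 < d → (∀ a ∈ K, ∀ b ∈ K, ‖a - b‖ ≤ d) →
      (∀ r < d, ∃ a ∈ K, ∃ b ∈ K, r < ‖a - b‖) → False) : ∃ x ∈ C, T x = x := by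
  by_contra hno
  obtain ⟨K, hKC, hKinv, hKmin⟩ := exists_minimal_invariant hCw hinv
  have h : IsMinInv T K := ⟨hKinv, hCw.mono hKC hKinv.closed hKinv.convex,
    fun a ha c hc => hne a (hKC ha) c (hKC hc), hKmin⟩
  have hKb : Bornology.IsBounded K := hCb.subset hKC
  have hd : ∀ a ∈ K, ∀ c ∈ K, ‖a - c‖ ≤ Metric.diam K := by
    intro a ha c hc
    rw [← dist_eq_norm]
    exact Metric.dist_le_diam_of_mem hKb ha hc
  have hd0 : 0 < Metric.diam K := by
    by_contra hle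
    obtain ⟨x, hx⟩ := hKinv.nonempty
    have h1 := hd (T x) (hKinv.maps hx) x hx
    have h2 : ‖T x - x‖ ≤ 0 := by linarith
    have h3 : T x = x := by
      rw [← sub_eq_zero]; exact norm_le_zero_iff.mp h2
    exact hno ⟨x, hKC hx, h3⟩
  have hd' : ∀ r < Metric.diam K, ∃ a ∈ K, ∃ c ∈ K, r < ‖a - c‖ := by
    intro r hr
    by_contra hcon
    push Not at hcon
    obtain ⟨x, hx⟩ := hKinv.nonempty
    have hr0 : 0 ≤ r := by simpa using hcon x hx x hx
    have : Metric.diam K ≤ r := Metric.diam_le_of_forall_dist_le hr0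
      (fun a ha c hc => by rw [dist_eq_norm]; exact hcon a ha c hc)
    linarith
  exact H K h _ hd0 hd hd'

theorem exists_fixed_of_flip [CompleteSpace X] {c : ℝ} (hc1 : 1 ≤ c) (hc : 2 * c ^ 2 + c < 5)
    (hF : ∀ L0 L' : Set X, L0.Countable → L0 ⊆ L' → WCompact L' → FlipOn c L0)
    {C : Set X} {T : X → X} (hCw : WCompact C)
    (hCb : Bornology.IsBounded C) (hinv : IsInv T C)
    (hne : ∀ a ∈ C, ∀ b ∈ C, ‖T a - T b‖ ≤ ‖a - b‖) : ∃ x ∈ C, T x = x := by
  apply exists_fixed_of_no_minimal hCw hCb hinv hne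
  intro K h d hd0 hd hd'
  exact flip_core h hd0 hd hd' hc1 hc
    (fun L hL hsub => hF L _ hL hsub ((h.wc.sub h.wc).add (h.wc.sub h.wc)))

theorem hasFPP_of_reflexive_worth [CompleteSpace X] (hX : IsReflexiveSpace X)
    (hW : HasWORTH X) : HasFPP X := by
  intro C hCne hCcl hCb hCv T hmaps hne
  exact exists_fixed_of_flip le_rfl (by norm_num)
    (fun L0 L' h1 h2 h3 => flipOn_of_worth hW h1 h2 h3)
    (wcompact_of_reflexive hX hCcl hCb hCv) hCb ⟨hCne, hCcl, hCv, hmaps⟩ hne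

end Vale.Agent.P079
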